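import Crest.Agent.SwitchChain.Spec

set_option autoImplicit false

namespace Crest.Agent.SwitchChain

open Finset

variable {X : Type*} [Fintype X] [DecidableEq X]

/-- apply the transposition `(x y)` to a finset -/
def tr (x y : X) (A : Finset X) : Finset X := A.map (Equiv.swap x y).toEmbedding

theorem mem_tr (x y z : X) (A : Finset X) : z ∈ tr x y A ↔ Equiv.swap x y z ∈ A := by
  unfold tr
  rw [Finset.mem_map_equiv, Equiv.symm_swap]

@[simp] theorem tr_tr (x y : X) (A : Finset X) : tr x y (tr x y A) = A := by
  ext z; simp [mem_tr]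

@[simp] theorem card_tr (x y : X) (A : Finset X) : (tr x y A).card = A.card := by
  unfold tr; simp

theorem tr_comm (x y : X) (A : Finset X) : tr x y A = tr y x A := by
  unfold tr; rw [Equiv.swap_comm]

theorem tr_eq_self {x y : X} {A : Finset X} (h : x ∈ A ↔ y ∈ A) : tr x y A = A := by
  ext z
  rw [mem_tr]
  by_cases hx : z = x
  · subst hx; simp [h]
  · by_cases hy : z = y
    · subst hy; simp [h]
    · rw [Equiv.swap_apply_of_ne_of_ne hx hy]

theorem tr_self (x : X) (A : Finset X) : tr x x A = A := tr_eq_self Iff.rfl

theorem tr_eq_insert {x y : X} {A : Finset X} (hx : x ∈ A) (hy : y ∉ A) :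
    tr x y A = insert y (A.erase x) := by
  ext z
  rw [mem_tr, Finset.mem_insert, Finset.mem_erase]
  by_cases hzx : z = x
  · subst hzx
    have : z ≠ y := fun h => hy (h ▸ hx)
    simp [hy, this]
  · by_cases hzy : z = y
    · subst hzy; simp [hx]
    · rw [Equiv.swap_apply_of_ne_of_ne hzx hzy]; simp [hzx, hzy]

/-- conjugation -/
theorem tr_tr_conj (c e x y : X) (A : Finset X) :
    tr c e (tr x y A) = tr (Equiv.swap c e x) (Equiv.swap c e y) (tr c e A) := by
  ext z
  simp only [mem_tr]
  have h : Equiv.swap x y (Equiv.swap c e z) =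
      Equiv.swap c e (Equiv.swap (Equiv.swap c e x) (Equiv.swap c e y) z) := by
    have := Equiv.swap_apply_apply (Equiv.swap c e) x y
    rw [this]
    simp
  rw [h]

/-- swap-invariance on a level gives constancy on that level -/
theorem const_of_tr_inv (p : ℕ) (f : Finset X → ℝ)
    (h : ∀ (c e : X) (A : Finset X), A.card = p → f (tr c e A) = f A) :
    ∀ A B : Finset X, A.card = p → B.card = p → f A = f B := by
  have key : ∀ (n : ℕ) (A B : Finset X), (A \ B).card = n → A.card = p → B.card = p → f A = f B := by
    intro n
    induction n with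
    | zero =>
      intro A B h0 hA hB
      have h1 : A ⊆ B := by
        rw [← Finset.sdiff_eq_empty_iff_subset]; exact Finset.card_eq_zero.mp h0
      have : A = B := Finset.eq_of_subset_of_card_le h1 (by omega)
      rw [this]
    | succ n ih =>
      intro A B h0 hA hB
      obtain ⟨x, hx⟩ : (A \ B).Nonempty := by
        rw [← Finset.card_pos]; omega
      have hBA : (B \ A).card = (A \ B).card := by
        have h2 := Finset.card_sdiff_add_card_inter A B
        have h3 := Finset.card_sdiff_add_card_inter B A
        rw [Finset.inter_comm] at h3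
        omega
      obtain ⟨y, hy⟩ : (B \ A).Nonempty := by
        rw [← Finset.card_pos]; omega
      rw [Finset.mem_sdiff] at hx hy
      have e1 : tr x y A = insert y (A.erase x) := tr_eq_insert hx.1 hy.2
      have e2 : (tr x y A \ B) = (A \ B).erase x := by
        rw [e1]
        ext z
        simp only [Finset.mem_sdiff, Finset.mem_insert, Finset.mem_erase]
        constructor
        · rintro ⟨h1 | h1, h2⟩
          · subst h1; exact absurd hy.1 h2
          · exact ⟨h1.1, h1.2, h2⟩
        · rintro ⟨h1, h2, h3⟩
          exact ⟨Or.inr ⟨h1, h2⟩, h3⟩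
      have h4 := ih (tr x y A) B (by
        rw [e2, Finset.card_erase_of_mem (Finset.mem_sdiff.mpr hx)]; omega) (by rw [card_tr, hA]) hB
      rw [← h4, h x y A hA]
  intro A B hA hB
  exact key _ A B rfl hA hB

/-- sum over a level is invariant under `tr` -/
theorem sum_level_tr (p : ℕ) (c e : X) (f : Finset X → ℝ) :
    ∑ A ∈ (univ : Finset X).powersetCard p, f (tr c e A)
      = ∑ A ∈ (univ : Finset X).powersetCard p, f A := by
  refine Finset.sum_nbij' (tr c e) (tr c e) ?_ ?_ ?_ ?_ ?_
  · intro A hA; rw [Finset.mem_powersetCard] at hA ⊢; exact ⟨Finset.subset_univ _, by simpa using hA.2⟩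
  · intro A hA; rw [Finset.mem_powersetCard] at hA ⊢; exact ⟨Finset.subset_univ _, by simpa using hA.2⟩
  · intro A _; simp
  · intro A _; simp
  · intro A _; rfl

theorem sum_tr (c e : X) (f : Finset X → ℝ) :
    ∑ A : Finset X, f (tr c e A) = ∑ A : Finset X, f A := by
  refine Finset.sum_nbij' (tr c e) (tr c e) ?_ ?_ ?_ ?_ ?_ <;> simp


/-- the interchange operator -/
theorem interchange_eig_inv (p : ℕ) (ν : ℝ) (f : Finset X → ℝ)
    (hν : ν < 2 * (Fintype.card X : ℝ))
    (hL : ∀ A : Finset X, A.card = p → ∑ x : X, ∑ y : X, (f A - f (tr x y A)) = ν * f A) :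
    ∀ (c e : X) (A : Finset X), A.card = p → f (tr c e A) = f A := by
  intro c e A0 hA0
  by_contra hne
  have hce : c ≠ e := by
    rintro rfl
    exact hne (by rw [tr_self])
  set h : Finset X → ℝ := fun A => f A - f (tr c e A) with hh
  have hanti : ∀ A, h (tr c e A) = - h A := by
    intro A; simp only [hh, tr_tr]; ring
  have hzero : ∀ A : Finset X, (c ∈ A ↔ e ∈ A) → h A = 0 := by
    intro A hA; simp only [hh]; rw [tr_eq_self hA]; ring
  -- h is an eigenfunction
  have hLh : ∀ A : Finset X, A.card = p → ∑ x : X, ∑ y : X, (h A - h (tr x y A)) = ν * h A := by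
    intro A hA
    have h1 := hL A hA
    have h2 := hL (tr c e A) (by rw [card_tr, hA])
    have h3 : ∑ x : X, ∑ y : X, (f (tr c e A) - f (tr x y (tr c e A)))
        = ∑ x : X, ∑ y : X, (f (tr c e A) - f (tr c e (tr x y A))) := by
      rw [← Equiv.sum_comp (Equiv.swap c e)]
      refine Finset.sum_congr rfl fun x _ => ?_
      rw [← Equiv.sum_comp (Equiv.swap c e)]
      refine Finset.sum_congr rfl fun y _ => ?_
      rw [tr_tr_conj c e x y A]
    rw [h3] at h2
    calc ∑ x : X, ∑ y : X, (h A - h (tr x y A))
        = ∑ x : X, ∑ y : X, ((f A - f (tr x y A)) - (f (tr c e A) - f (tr c e (tr x y A)))) := by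
          refine Finset.sum_congr rfl fun x _ => Finset.sum_congr rfl fun y _ => ?_
          simp only [hh]; ring
      _ = ∑ x : X, ∑ y : X, (f A - f (tr x y A))
          - ∑ x : X, ∑ y : X, (f (tr c e A) - f (tr c e (tr x y A))) := by
          simp only [Finset.sum_sub_distrib]
      _ = ν * h A := by rw [h1, h2]; simp only [hh]; ring
  -- maximizer
  obtain ⟨A1, hA1mem, hA1max⟩ := Finset.exists_max_image ((univ : Finset X).powersetCard p) h
    ⟨A0, by rw [Finset.mem_powersetCard]; exact ⟨Finset.subset_univ _, hA0⟩⟩
  have hA1 : A1.card = p := (Finset.mem_powersetCard.mp hA1mem).2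
  have hmax : ∀ A : Finset X, A.card = p → h A ≤ h A1 := by
    intro A hA
    exact hA1max A (by rw [Finset.mem_powersetCard]; exact ⟨Finset.subset_univ _, hA⟩)
  have hpos : 0 < h A1 := by
    have h0 : h A0 ≠ 0 := by
      simp only [hh]; intro h0; apply hne; linarith
    rcases lt_or_gt_of_ne h0 with h1 | h1
    · have := hmax (tr c e A0) (by rw [card_tr, hA0])
      rw [hanti] at this; linarith
    · exact lt_of_lt_of_le h1 (hmax A0 hA0)
  have hsp : ¬ (c ∈ A1 ↔ e ∈ A1) := fun h1 => by
    rw [hzero A1 h1] at hpos; exact lt_irrefl _ hpos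
  -- the two-neighbour identity
  have hid : ∀ d : X, d ≠ c → d ≠ e → h (tr c d A1) + h (tr e d A1) = h A1 := by
    intro d hdc hde
    by_cases hd : (c ∈ A1 ↔ d ∈ A1)
    · have e1 : tr c d A1 = A1 := tr_eq_self hd
      have e2 : h (tr e d A1) = 0 := by
        apply hzero
        rw [mem_tr, mem_tr, Equiv.swap_apply_of_ne_of_ne hce (Ne.symm hdc), Equiv.swap_apply_left]
        exact hd
      rw [e1, e2, add_zero]
    · have hd2 : (e ∈ A1 ↔ d ∈ A1) := by tauto
      have e1 : tr e d A1 = A1 := tr_eq_self hd2
      have e2 : h (tr c d A1) = 0 := by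
        apply hzero
        rw [mem_tr, mem_tr, Equiv.swap_apply_left, Equiv.swap_apply_of_ne_of_ne (Ne.symm hce) (Ne.symm hde)]
        tauto
      rw [e1, e2, zero_add]
  set g : X → X → ℝ := fun x y => h A1 - h (tr x y A1) with hg
  have hg0 : ∀ x y, 0 ≤ g x y := by
    intro x y
    have := hmax (tr x y A1) (by rw [card_tr, hA1])
    simp only [hg]; linarith
  have hgsymm : ∀ x y, g x y = g y x := by
    intro x y; simp only [hg]; rw [tr_comm]
  have hgd : ∀ d : X, d ≠ c → d ≠ e → g c d + g e d = h A1 := by
    intro d h1 h2
    have := hid d h1 h2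
    simp only [hg]; linarith
  have hgce : g c e = 2 * h A1 := by
    simp only [hg, hanti]; ring
  have hgcc : g c c = 0 := by simp only [hg, tr_self]; ring
  have hgee : g e e = 0 := by simp only [hg, tr_self]; ring
  have hsum1 : ∑ y : X, (g c y + g e y) = ((Fintype.card X : ℝ) + 2) * h A1 := by
    have h1 : ∀ y : X, g c y + g e y = h A1 + (if y = c then h A1 else 0) + (if y = e then h A1 else 0) := by
      intro y
      by_cases h1 : y = c
      · subst h1
        rw [hgcc, hgsymm e y, hgce]; simp [hce]; ring
      · by_cases h2 : y = e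
        · subst h2
          rw [hgee, hgce]; simp [Ne.symm hce]; ring
        · rw [hgd y h1 h2]; simp [h1, h2]
    simp only [h1, Finset.sum_add_distrib, Finset.sum_ite_eq', Finset.mem_univ, if_true,
      Finset.sum_const, Finset.card_univ, nsmul_eq_mul]
    ring
  have hsum2 : 2 * (Fintype.card X : ℝ) * h A1 ≤ ∑ x : X, ∑ y : X, g x y := by
    have h1 : ∀ x : X, (if x = c ∨ x = e then ∑ y : X, g x y else g c x + g e x) ≤ ∑ y : X, g x y := by
      intro x
      split_ifs with hx
      · exact le_rfl
      · have : g c x + g e x = ∑ y ∈ ({c, e} : Finset X), g x y := by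
          rw [Finset.sum_pair hce, hgsymm c x, hgsymm e x]
        rw [this]
        exact Finset.sum_le_sum_of_subset_of_nonneg (Finset.subset_univ _) fun y _ _ => hg0 x y
    refine le_trans ?_ (Finset.sum_le_sum fun x _ => h1 x)
    have h2 : ∀ x : X, (if x = c ∨ x = e then ∑ y : X, g x y else g c x + g e x)
        = (g c x + g e x) + (if x = c then (∑ y : X, g c y) - 2 * h A1 else 0)
          + (if x = e then (∑ y : X, g e y) - 2 * h A1 else 0) := by
      intro x
      by_cases h1 : x = c
      · subst h1; simp [hce, hgcc, hgsymm e x, hgce]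
      · by_cases h2 : x = e
        · subst h2; simp [Ne.symm hce, hgee, hgce]
        · simp [h1, h2]
    simp only [h2]
    rw [Finset.sum_add_distrib, Finset.sum_add_distrib, Finset.sum_ite_eq', Finset.sum_ite_eq',
      if_pos (Finset.mem_univ _), if_pos (Finset.mem_univ _)]
    have h3 : ∑ y : X, g c y + ∑ y : X, g e y = ((Fintype.card X : ℝ) + 2) * h A1 := by
      rw [← Finset.sum_add_distrib]; exact hsum1
    rw [hsum1]
    nlinarith [h3]
  rw [hg] at hsum2
  simp only at hsum2
  rw [hLh A1 hA1] at hsum2
  nlinarith

/-- J1: Poincaré inequality on the Johnson scheme (sharp constant). -/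
theorem johnson_poincare (p : ℕ) (f : Finset X → ℝ)
    (hf : ∑ A ∈ (univ : Finset X).powersetCard p, f A = 0) :
    4 * (Fintype.card X : ℝ) * ∑ A ∈ (univ : Finset X).powersetCard p, f A ^ 2
      ≤ ∑ A ∈ (univ : Finset X).powersetCard p, ∑ x : X, ∑ y : X, (f A - f (tr x y A)) ^ 2 := by
  classical
  set J := (univ : Finset X).powersetCard p with hJ
  have hmemJ : ∀ A : Finset X, A ∈ J ↔ A.card = p := by
    intro A; rw [hJ, Finset.mem_powersetCard]; simp
  set K : ℝ := (Fintype.card X : ℝ) with hK
  have hK0 : 0 ≤ K := by positivity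
  -- operator
  let T : (Finset X → ℝ) →ₗ[ℝ] (Finset X → ℝ) :=
    { toFun := fun f A => if A ∈ J then ∑ x : X, ∑ y : X, (f A - f (tr x y A)) + 2 * K * ∑ B ∈ J, f B
        else 2 * K * f A
      map_add' := by
        intro f g; ext A
        simp only [Pi.add_apply]
        split_ifs
        · simp only [Finset.sum_add_distrib, Finset.sum_sub_distrib]; ring
        · ring
      map_smul' := by
        intro r f; ext A
        simp only [Pi.smul_apply, smul_eq_mul, RingHom.id_apply]
        split_ifs
        · simp only [← Finset.mul_sum, ← mul_sub]; ring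
        · ring }
  have hTdef : ∀ f A, T f A = if A ∈ J then ∑ x : X, ∑ y : X, (f A - f (tr x y A)) + 2 * K * ∑ B ∈ J, f B
        else 2 * K * f A := fun f A => rfl
  have hquad : ∀ f g : Finset X → ℝ, ∑ A : Finset X, f A * T g A
      = ∑ A ∈ J, ∑ x : X, ∑ y : X, f A * (g A - g (tr x y A)) + 2 * K * (∑ B ∈ J, f B) * (∑ B ∈ J, g B)
        + ∑ A ∈ univ \ J, 2 * K * (f A * g A) := by
    intro f g
    rw [← Finset.sum_sdiff (Finset.subset_univ J), add_comm]
    congr 1
    · calc ∑ A ∈ J, f A * T g A = ∑ A ∈ J, (∑ x : X, ∑ y : X, f A * (g A - g (tr x y A))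
              + 2 * K * (∑ B ∈ J, g B) * f A) := by
            refine Finset.sum_congr rfl fun A hA => ?_
            rw [hTdef, if_pos hA, mul_add, Finset.mul_sum]
            congr 1
            · refine Finset.sum_congr rfl fun x _ => ?_
              rw [Finset.mul_sum]
            · ring
        _ = _ := by
            rw [Finset.sum_add_distrib, ← Finset.mul_sum]; ring
    · refine Finset.sum_congr rfl fun A hA => ?_
      rw [hTdef, if_neg (Finset.mem_sdiff.mp hA).2]; ring
  have hswap : ∀ f g : Finset X → ℝ, ∑ A ∈ J, ∑ x : X, ∑ y : X, f A * (g A - g (tr x y A))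
      = ∑ A ∈ J, ∑ x : X, ∑ y : X, (f A - f (tr x y A)) * (g A - g (tr x y A)) / 2 := by
    intro f g
    have e1 : ∀ F : Finset X → X → X → ℝ, ∑ A ∈ J, ∑ x : X, ∑ y : X, F A x y
        = ∑ x : X, ∑ y : X, ∑ A ∈ J, F A x y := by
      intro F
      rw [Finset.sum_comm]
      refine Finset.sum_congr rfl fun x _ => ?_
      rw [Finset.sum_comm]
    rw [e1, e1]
    refine Finset.sum_congr rfl fun x _ => Finset.sum_congr rfl fun y _ => ?_
    have e2 := sum_level_tr p x y (fun A => f A * (g A - g (tr x y A)))
    simp only [tr_tr] at e2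
    have e3 : ∑ A ∈ J, (f A - f (tr x y A)) * (g A - g (tr x y A)) / 2
        = (∑ A ∈ J, f A * (g A - g (tr x y A))) / 2
          + (∑ A ∈ J, f (tr x y A) * (g (tr x y A) - g A)) / 2 := by
      rw [← add_div, ← Finset.sum_add_distrib, Finset.sum_div]
      refine Finset.sum_congr rfl fun A _ => ?_
      ring
    rw [e3, e2]; ring
  have hTsymm : ∀ f g : Finset X → ℝ, ∑ A : Finset X, f A * T g A = ∑ A : Finset X, T f A * g A := by
    intro f g
    have h1 := hquad f g
    have h2 := hquad g f
    rw [hswap] at h1 h2
    have h3 : ∑ A : Finset X, T f A * g A = ∑ A : Finset X, g A * T f A :=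
      Finset.sum_congr rfl fun A _ => mul_comm _ _
    rw [h3, h1, h2]
    congr 1
    · congr 1
      · refine Finset.sum_congr rfl fun A _ => Finset.sum_congr rfl fun x _ =>
          Finset.sum_congr rfl fun y _ => ?_
        ring
      · ring
    · refine Finset.sum_congr rfl fun A _ => ?_
      ring
  rcases J.eq_empty_or_nonempty with hJe | hJne
  · rw [hJe]; simp
  have hJ1 : (1 : ℝ) ≤ (J.card : ℝ) := by
    have := Finset.card_pos.mpr hJne
    exact_mod_cast this
  have heig : ∀ (ν : ℝ) (u : Finset X → ℝ), ν < 2 * K → T u = ν • u → u = 0 := by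
    intro ν u hν hu
    have hoff : ∀ A, A ∉ J → u A = 0 := by
      intro A hA
      have h1 := congrFun hu A
      rw [hTdef, if_neg hA, Pi.smul_apply, smul_eq_mul] at h1
      have : (2 * K - ν) * u A = 0 := by linarith
      rcases mul_eq_zero.mp this with h2 | h2
      · linarith
      · exact h2
    have hon : ∀ A, A ∈ J → ∑ x : X, ∑ y : X, (u A - u (tr x y A)) + 2 * K * ∑ B ∈ J, u B = ν * u A := by
      intro A hA
      have h1 := congrFun hu A
      rw [hTdef, if_pos hA, Pi.smul_apply, smul_eq_mul] at h1
      exact h1
    have hsum0 : ∑ A ∈ J, ∑ x : X, ∑ y : X, (u A - u (tr x y A)) = 0 := by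
      have := hswap (fun _ => 1) u
      simpa using this
    have hz : ∑ B ∈ J, u B = 0 := by
      have h1 : ∑ A ∈ J, (∑ x : X, ∑ y : X, (u A - u (tr x y A)) + 2 * K * ∑ B ∈ J, u B)
          = ∑ A ∈ J, ν * u A := Finset.sum_congr rfl hon
      rw [Finset.sum_add_distrib, hsum0, Finset.sum_const, nsmul_eq_mul, ← Finset.mul_sum] at h1
      have h2 : (2 * K * (J.card : ℝ) - ν) * ∑ B ∈ J, u B = 0 := by linarith
      rcases mul_eq_zero.mp h2 with h3 | h3
      · exfalso
        nlinarith
      · exact h3
    have hinv := interchange_eig_inv p ν u hν (by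
      intro A hA
      have := hon A ((hmemJ A).mpr hA)
      rw [hz] at this; linarith)
    have hconst := const_of_tr_inv p u hinv
    ext A
    by_cases hA : A ∈ J
    · have h1 : ∑ B ∈ J, u B = ∑ B ∈ J, u A :=
        Finset.sum_congr rfl fun B hB => hconst B A ((hmemJ B).mp hB) ((hmemJ A).mp hA)
      rw [hz, Finset.sum_const, nsmul_eq_mul] at h1
      rcases mul_eq_zero.mp h1.symm with h2 | h2
      · linarith
      · exact h2
    · exact hoff A hA
  -- apply to f cut off outside J
  set u : Finset X → ℝ := fun A => if A ∈ J then f A else 0 with hu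
  have hmain := le_quad_of_eig T hTsymm (2 * K) heig u
  have hu1 : ∀ A ∈ J, u A = f A := fun A hA => by simp [hu, hA]
  have hu2 : ∀ A ∈ univ \ J, u A = 0 := fun A hA => by simp [hu, (Finset.mem_sdiff.mp hA).2]
  have hu3 : ∀ A ∈ J, ∀ x y : X, u (tr x y A) = f (tr x y A) := by
    intro A hA x y
    apply hu1
    rw [hmemJ] at hA ⊢
    rw [card_tr, hA]
  have l1 : ∑ A : Finset X, u A ^ 2 = ∑ A ∈ J, f A ^ 2 := by
    rw [← Finset.sum_sdiff (Finset.subset_univ J), Finset.sum_eq_zero (fun A hA => by rw [hu2 A hA]; ring),
      zero_add]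
    exact Finset.sum_congr rfl fun A hA => by rw [hu1 A hA]
  have l2 : ∑ A : Finset X, u A * T u A
      = ∑ A ∈ J, ∑ x : X, ∑ y : X, (f A - f (tr x y A)) ^ 2 / 2 := by
    rw [hquad, hswap]
    have e1 : ∑ B ∈ J, u B = 0 := by
      rw [Finset.sum_congr rfl hu1]; exact hf
    have e2 : ∑ A ∈ univ \ J, 2 * K * (u A * u A) = 0 :=
      Finset.sum_eq_zero (fun A hA => by rw [hu2 A hA]; ring)
    rw [e1, e2]
    simp only [mul_zero, add_zero]
    refine Finset.sum_congr rfl fun A hA => Finset.sum_congr rfl fun x _ =>
      Finset.sum_congr rfl fun y _ => ?_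
    rw [hu1 A hA, hu3 A hA x y]; ring
  rw [l1, l2] at hmain
  have l3 : ∑ A ∈ J, ∑ x : X, ∑ y : X, (f A - f (tr x y A)) ^ 2 / 2
      = (∑ A ∈ J, ∑ x : X, ∑ y : X, (f A - f (tr x y A)) ^ 2) / 2 := by
    simp only [Finset.sum_div]
  rw [l3] at hmain
  linarith


/-- `A` splits `x` and `y`. -/
def sp (x y : X) (A : Finset X) : Prop := ¬ (x ∈ A ↔ y ∈ A)

instance (x y : X) (A : Finset X) : Decidable (sp x y A) := by unfold sp; infer_instance

theorem sp_comm (x y : X) (A : Finset X) : sp x y A ↔ sp y x A := by unfold sp; tauto

theorem sp_self (x : X) (A : Finset X) : ¬ sp x x A := by unfold sp; tauto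

theorem sp_tr (c e x y : X) (A : Finset X) :
    sp x y (tr c e A) ↔ sp (Equiv.swap c e x) (Equiv.swap c e y) A := by
  unfold sp; rw [mem_tr, mem_tr]

/-- number of ordered pairs split by a set of size `p` -/
theorem card_split_pairs (A : Finset X) :
    ∑ x : X, ∑ y : X, (if sp x y A then (1 : ℝ) else 0)
      = 2 * (A.card : ℝ) * ((Fintype.card X : ℝ) - A.card) := by
  have h1 : ∀ x : X, ∑ y : X, (if sp x y A then (1 : ℝ) else 0)
      = if x ∈ A then ((Fintype.card X : ℝ) - A.card) else (A.card : ℝ) := by
    intro x
    by_cases hx : x ∈ A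
    · rw [if_pos hx]
      have : ∀ y : X, (if sp x y A then (1 : ℝ) else 0) = 1 - (if y ∈ A then (1 : ℝ) else 0) := by
        intro y
        by_cases hy : y ∈ A <;> simp [sp, hx, hy]
      simp only [this, Finset.sum_sub_distrib, Finset.sum_const, Finset.card_univ, nsmul_eq_mul,
        mul_one, Finset.sum_ite_mem, Finset.univ_inter]
    · rw [if_neg hx]
      have : ∀ y : X, (if sp x y A then (1 : ℝ) else 0) = (if y ∈ A then (1 : ℝ) else 0) := by
        intro y
        by_cases hy : y ∈ A <;> simp [sp, hx, hy]
      simp only [this, Finset.sum_ite_mem, Finset.univ_inter, Finset.sum_const, nsmul_eq_mul, mul_one]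
  have h2 : ∀ x : X, (if x ∈ A then ((Fintype.card X : ℝ) - A.card) else (A.card : ℝ))
      = (A.card : ℝ) + (if x ∈ A then ((Fintype.card X : ℝ) - 2 * A.card) else 0) := by
    intro x
    by_cases hx : x ∈ A
    · simp only [hx, if_true]; ring
    · simp only [hx, if_false]; ring
  simp only [h1, h2, Finset.sum_add_distrib, Finset.sum_ite_mem, Finset.univ_inter,
    Finset.sum_const, Finset.card_univ, nsmul_eq_mul]
  ring

/-- J2: Bessel type inequality for the functions "`A` splits `x, y`". -/
theorem johnson_split (p : ℕ) (s : ℝ) (hK2 : 2 ≤ Fintype.card X)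
    (hs : ∀ c e : X, c ≠ e →
      ((((univ : Finset X).powersetCard p).filter (fun A => sp c e A)).card : ℝ) = s)
    (f : Finset X → ℝ)
    (hf : ∑ A ∈ (univ : Finset X).powersetCard p, f A = 0) :
    ∑ x : X, ∑ y : X, (∑ A ∈ (univ : Finset X).powersetCard p, if sp x y A then f A else 0) ^ 2
      ≤ s * ((Fintype.card X : ℝ) - 2) * ∑ A ∈ (univ : Finset X).powersetCard p, f A ^ 2 := by
  classical
  set J := (univ : Finset X).powersetCard p with hJ
  have hmemJ : ∀ A : Finset X, A ∈ J ↔ A.card = p := by
    intro A; rw [hJ, Finset.mem_powersetCard]; simp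
  set K : ℝ := (Fintype.card X : ℝ) with hK
  have hK2' : (2 : ℝ) ≤ K := by rw [hK]; exact_mod_cast hK2
  have hs0 : 0 ≤ s := by
    obtain ⟨c, e, hce⟩ := Fintype.exists_pair_of_one_lt_card (α := X) (by omega)
    rw [← hs c e hce]; positivity
  let F : (Finset X → ℝ) → X → X → ℝ := fun g x y => ∑ A ∈ J, if sp x y A then g A else 0
  have hFdef : ∀ g x y, F g x y = ∑ A ∈ J, if sp x y A then g A else 0 := fun g x y => rfl
  have hFsymm : ∀ g x y, F g x y = F g y x := by
    intro g x y; simp only [hFdef]
    refine Finset.sum_congr rfl fun A _ => ?_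
    simp only [sp_comm x y A]
  have hFself : ∀ g x, F g x x = 0 := by
    intro g x; simp only [hFdef]
    exact Finset.sum_eq_zero fun A _ => by rw [if_neg (sp_self x A)]
  let T : (Finset X → ℝ) →ₗ[ℝ] (Finset X → ℝ) :=
    { toFun := fun f A => if A ∈ J then (∑ x : X, ∑ y : X, (if sp x y A then F f x y else 0))
          - s * K ^ 2 * ∑ B ∈ J, f B
        else 0
      map_add' := by
        intro f g; ext A
        have e1 : ∀ x y, F (f + g) x y = F f x y + F g x y := by
          intro x y; simp only [hFdef, Pi.add_apply, ← Finset.sum_add_distrib]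
          refine Finset.sum_congr rfl fun A _ => ?_
          split_ifs <;> simp
        have e2 : ∀ x y, (if sp x y A then F (f + g) x y else 0)
            = (if sp x y A then F f x y else 0) + (if sp x y A then F g x y else 0) := by
          intro x y; split_ifs <;> simp [e1]
        simp only [Pi.add_apply]
        split_ifs
        · simp only [e2, Finset.sum_add_distrib]; ring
        · ring
      map_smul' := by
        intro r f; ext A
        have e1 : ∀ x y, F (r • f) x y = r * F f x y := by
          intro x y; simp only [hFdef, Pi.smul_apply, smul_eq_mul, Finset.mul_sum]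
          refine Finset.sum_congr rfl fun A _ => ?_
          split_ifs <;> simp
        have e2 : ∀ x y, (if sp x y A then F (r • f) x y else 0)
            = r * (if sp x y A then F f x y else 0) := by
          intro x y; split_ifs <;> simp [e1]
        simp only [Pi.smul_apply, smul_eq_mul, RingHom.id_apply]
        split_ifs
        · simp only [e2, ← Finset.mul_sum]; ring
        · ring }
  have hTdef : ∀ f A, T f A = if A ∈ J then (∑ x : X, ∑ y : X, (if sp x y A then F f x y else 0))
          - s * K ^ 2 * ∑ B ∈ J, f B
        else 0 := fun f A => rfl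
  have hquad : ∀ f g : Finset X → ℝ, ∑ A : Finset X, f A * T g A
      = ∑ x : X, ∑ y : X, F f x y * F g x y - s * K ^ 2 * (∑ B ∈ J, f B) * (∑ B ∈ J, g B) := by
    intro f g
    have e1 : ∑ A : Finset X, f A * T g A = ∑ A ∈ J, f A * T g A := by
      symm
      apply Finset.sum_subset (Finset.subset_univ J)
      intro A _ hA
      rw [hTdef, if_neg hA, mul_zero]
    rw [e1]
    have e2 : ∀ A ∈ J, f A * T g A = ∑ x : X, ∑ y : X, (if sp x y A then f A else 0) * F g x y
        - (s * K ^ 2 * ∑ B ∈ J, g B) * f A := by
      intro A hA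
      rw [hTdef, if_pos hA, mul_sub, Finset.mul_sum]
      congr 1
      · refine Finset.sum_congr rfl fun x _ => ?_
        rw [Finset.mul_sum]
        refine Finset.sum_congr rfl fun y _ => ?_
        split_ifs <;> simp
      · ring
    rw [Finset.sum_congr rfl e2, Finset.sum_sub_distrib, ← Finset.mul_sum]
    congr 1
    · rw [Finset.sum_comm]
      refine Finset.sum_congr rfl fun x _ => ?_
      rw [Finset.sum_comm]
      refine Finset.sum_congr rfl fun y _ => ?_
      rw [← Finset.sum_mul]
    · ring
  have hTsymm : ∀ f g : Finset X → ℝ, ∑ A : Finset X, f A * T g A = ∑ A : Finset X, T f A * g A := by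
    intro f g
    have h3 : ∑ A : Finset X, T f A * g A = ∑ A : Finset X, g A * T f A :=
      Finset.sum_congr rfl fun A _ => mul_comm _ _
    rw [h3, hquad f g, hquad g f]
    congr 1
    · refine Finset.sum_congr rfl fun x _ => Finset.sum_congr rfl fun y _ => ?_
      ring
    · ring
  rcases J.eq_empty_or_nonempty with hJe | hJne
  · simp [hJe]
  have hJ1 : (1 : ℝ) ≤ (J.card : ℝ) := by
    have := Finset.card_pos.mpr hJne
    exact_mod_cast this
  have heig : ∀ (ν : ℝ) (u : Finset X → ℝ), s * (K - 2) < ν → T u = ν • u → u = 0 := by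
    intro ν u hν hu
    have hνpos : 0 < ν := lt_of_le_of_lt (mul_nonneg hs0 (by linarith)) hν
    have hoff : ∀ A, A ∉ J → u A = 0 := by
      intro A hA
      have h1 := congrFun hu A
      rw [hTdef, if_neg hA, Pi.smul_apply, smul_eq_mul] at h1
      rcases mul_eq_zero.mp h1.symm with h2 | h2
      · linarith
      · exact h2
    have hon : ∀ A, A ∈ J → (∑ x : X, ∑ y : X, (if sp x y A then F u x y else 0))
          - s * K ^ 2 * ∑ B ∈ J, u B = ν * u A := by
      intro A hA
      have h1 := congrFun hu A
      rw [hTdef, if_pos hA, Pi.smul_apply, smul_eq_mul] at h1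
      exact h1
    -- mean zero
    have hz : ∑ B ∈ J, u B = 0 := by
      have h1 := hquad (fun _ => 1) u
      have hF1 : ∀ x y : X, x ≠ y → F (fun _ => 1) x y = s := by
        intro x y hxy
        rw [← hs x y hxy, hFdef, Finset.card_filter]
        push_cast
        rfl
      have h2 : ∑ x : X, ∑ y : X, F (fun _ => 1) x y * F u x y
          = s * ∑ x : X, ∑ y : X, F u x y := by
        rw [Finset.mul_sum]
        refine Finset.sum_congr rfl fun x _ => ?_
        rw [Finset.mul_sum]
        refine Finset.sum_congr rfl fun y _ => ?_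
        by_cases hxy : x = y
        · subst hxy; rw [hFself, hFself]; ring
        · rw [hF1 x y hxy]
      have h3 : ∑ x : X, ∑ y : X, F u x y = 2 * (p : ℝ) * (K - p) * ∑ B ∈ J, u B := by
        calc ∑ x : X, ∑ y : X, F u x y
            = ∑ B ∈ J, ∑ x : X, ∑ y : X, (if sp x y B then u B else 0) := by
              simp only [hFdef]
              rw [Finset.sum_comm (s := J)]
              refine Finset.sum_congr rfl fun x _ => ?_
              rw [Finset.sum_comm]
          _ = ∑ B ∈ J, 2 * (p : ℝ) * (K - p) * u B := by
              refine Finset.sum_congr rfl fun B hB => ?_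
              have e1 : ∀ x y : X, (if sp x y B then u B else 0) = (if sp x y B then (1 : ℝ) else 0) * u B := by
                intro x y; split_ifs <;> simp
              simp only [e1, ← Finset.sum_mul]
              rw [card_split_pairs, (hmemJ B).mp hB]
          _ = _ := by rw [← Finset.mul_sum]
      have h4 : ∑ A : Finset X, (fun _ => (1 : ℝ)) A * T u A = ν * ∑ B ∈ J, u B := by
        simp only [one_mul, hu, Pi.smul_apply, smul_eq_mul, ← Finset.mul_sum]
        congr 1
        symm
        exact Finset.sum_subset (Finset.subset_univ J) fun A _ hA => hoff A hA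
      rw [h4, h2, h3] at h1
      have h5 : (s * (2 * (p : ℝ) * (K - p)) - s * K ^ 2 * (J.card : ℝ) - ν) * ∑ B ∈ J, u B = 0 := by
        simp only [Finset.sum_const, nsmul_eq_mul, mul_one] at h1
        linarith
      rcases mul_eq_zero.mp h5 with h6 | h6
      · exfalso
        have h7 : 2 * (p : ℝ) * (K - p) ≤ K ^ 2 := by nlinarith [sq_nonneg (K - p), sq_nonneg (p : ℝ)]
        have h8 : K ^ 2 ≤ K ^ 2 * (J.card : ℝ) := by nlinarith [sq_nonneg K]
        nlinarith [mul_le_mul_of_nonneg_left (h7.trans h8) hs0]
      · exact h6
    have hon' : ∀ A, A ∈ J → (∑ x : X, ∑ y : X, (if sp x y A then F u x y else 0)) = ν * u A := by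
      intro A hA
      have := hon A hA
      rw [hz] at this; linarith
    -- invariance under transpositions
    have hinv : ∀ (c e : X) (A : Finset X), A.card = p → u (tr c e A) = u A := by
      intro c e
      by_cases hce : c = e
      · subst hce; intro A _; rw [tr_self]
      set h : Finset X → ℝ := fun A => u A - u (tr c e A) with hh
      have hzero : ∀ A : Finset X, ¬ sp c e A → h A = 0 := by
        intro A hA; simp only [hh]; rw [tr_eq_self (by unfold sp at hA; tauto)]; ring
      obtain ⟨A1, hA1mem, hA1max⟩ := Finset.exists_max_image J (fun A => |h A|) hJne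
      set m : ℝ := |h A1| with hm
      have hm0 : 0 ≤ m := abs_nonneg _
      have hmax : ∀ A ∈ J, |h A| ≤ m := fun A hA => hA1max A hA
      -- bound on eta
      have heta : ∀ d : X, d ≠ c → d ≠ e → |F u c d - F u e d| ≤ s / 2 * m := by
        intro d hdc hde
        set ε : Finset X → ℝ := fun B => (if sp c d B then (1 : ℝ) else 0) - (if sp e d B then (1 : ℝ) else 0) with hε
        have e1 : F u c d - F u e d = ∑ B ∈ J, ε B * u B := by
          simp only [hFdef]
          rw [← Finset.sum_sub_distrib]
          refine Finset.sum_congr rfl fun B _ => ?_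
          simp only [hε]
          split_ifs <;> ring
        have e2 : ∀ B, ε (tr c e B) = - ε B := by
          intro B
          simp only [hε, sp_tr, Equiv.swap_apply_left, Equiv.swap_apply_right,
            Equiv.swap_apply_of_ne_of_ne hdc hde]
          ring
        have e3 : ∑ B ∈ J, ε B * u B = ∑ B ∈ J, ε B * h B / 2 := by
          have h5 := sum_level_tr p c e (fun B => ε B * u B)
          simp only [e2] at h5
          have h6 : ∑ B ∈ J, ε B * h B / 2 = (∑ B ∈ J, ε B * u B) / 2
              + (∑ B ∈ J, -ε B * u (tr c e B)) / 2 := by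
            rw [← add_div, ← Finset.sum_add_distrib, Finset.sum_div]
            refine Finset.sum_congr rfl fun B _ => ?_
            simp only [hh]; ring
          rw [h6, h5]; ring
        have e4 : ∀ B ∈ J, |ε B * h B / 2| ≤ (if sp c e B then m / 2 else 0) := by
          intro B hB
          by_cases hB2 : sp c e B
          · rw [if_pos hB2, abs_div, abs_mul]
            have : |ε B| ≤ 1 := by
              simp only [hε]
              split_ifs <;> norm_num
            have h7 := hmax B hB
            have : |ε B| * |h B| ≤ m := by nlinarith [abs_nonneg (h B), abs_nonneg (ε B)]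
            rw [abs_of_pos (by norm_num : (0:ℝ) < 2)]
            linarith
          · rw [if_neg hB2, hzero B hB2]; simp
        rw [e1, e3]
        calc |∑ B ∈ J, ε B * h B / 2| ≤ ∑ B ∈ J, |ε B * h B / 2| := Finset.abs_sum_le_sum_abs _ _
          _ ≤ ∑ B ∈ J, (if sp c e B then m / 2 else 0) := Finset.sum_le_sum e4
          _ = s * (m / 2) := by
              rw [← Finset.sum_filter, Finset.sum_const, nsmul_eq_mul, hs c e hce]
          _ = s / 2 * m := by ring
      -- main estimate
      have hmain : ∀ A ∈ J, ν * |h A| ≤ s * (K - 2) * m := by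
        intro A hA
        by_cases hsp : sp c e A
        swap
        · rw [hzero A hsp, abs_zero, mul_zero]
          exact mul_nonneg (mul_nonneg hs0 (by linarith)) hm0
        set W : X → X → ℝ := fun x y => F u x y - F u (Equiv.swap c e x) (Equiv.swap c e y) with hW
        have htA : tr c e A ∈ J := by rw [hmemJ] at hA ⊢; rw [card_tr, hA]
        have e1 : ν * h A = ∑ x : X, ∑ y : X, (if sp x y A then W x y else 0) := by
          have h1 := hon' A hA
          have h2 := hon' _ htA
          have h3 : ∑ x : X, ∑ y : X, (if sp x y (tr c e A) then F u x y else 0)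
              = ∑ x : X, ∑ y : X, (if sp x y A then F u (Equiv.swap c e x) (Equiv.swap c e y) else 0) := by
            rw [← Equiv.sum_comp (Equiv.swap c e)]
            refine Finset.sum_congr rfl fun x _ => ?_
            rw [← Equiv.sum_comp (Equiv.swap c e)]
            refine Finset.sum_congr rfl fun y _ => ?_
            simp only [sp_tr, Equiv.swap_apply_self]
          rw [h3] at h2
          simp only [hh, mul_sub]
          rw [← h1, ← h2, ← Finset.sum_sub_distrib]
          refine Finset.sum_congr rfl fun x _ => ?_
          rw [← Finset.sum_sub_distrib]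
          refine Finset.sum_congr rfl fun y _ => ?_
          simp only [hW]
          split_ifs <;> ring
        set a : X → X → ℝ := fun x y => if sp x y A then |W x y| else 0 with ha
        have ha0 : ∀ x y, 0 ≤ a x y := by
          intro x y; simp only [ha]; split_ifs <;> simp
        have hWsymm : ∀ x y, W x y = W y x := by
          intro x y; simp only [hW]; rw [hFsymm u x y, hFsymm u (Equiv.swap c e x)]
        have hasymm : ∀ x y, a x y = a y x := by
          intro x y; simp only [ha]; rw [hWsymm]; simp only [sp_comm x y A]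
        have hW1 : ∀ d : X, d ≠ c → d ≠ e → W c d = F u c d - F u e d := by
          intro d h1 h2
          simp only [hW, Equiv.swap_apply_left, Equiv.swap_apply_of_ne_of_ne h1 h2]
        have hW2 : ∀ d : X, d ≠ c → d ≠ e → W e d = - (F u c d - F u e d) := by
          intro d h1 h2
          simp only [hW, Equiv.swap_apply_right, Equiv.swap_apply_of_ne_of_ne h1 h2]; ring
        have hW3 : ∀ x y : X, x ≠ c → x ≠ e → y ≠ c → y ≠ e → W x y = 0 := by
          intro x y h1 h2 h3 h4
          simp only [hW, Equiv.swap_apply_of_ne_of_ne h1 h2, Equiv.swap_apply_of_ne_of_ne h3 h4]; ring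
        have hWce : W c e = 0 := by
          simp only [hW, Equiv.swap_apply_left, Equiv.swap_apply_right]
          rw [hFsymm u c e]; ring
        have had : ∀ d : X, d ≠ c → d ≠ e → a c d + a e d ≤ s / 2 * m := by
          intro d h1 h2
          have h3 := heta d h1 h2
          have h4 : ¬ (sp c d A ∧ sp e d A) := by
            unfold sp at hsp ⊢; tauto
          have h5 : 0 ≤ s / 2 * m := by positivity
          simp only [ha, hW1 d h1 h2, hW2 d h1 h2, abs_neg]
          by_cases h6 : sp c d A
          · have h7 : ¬ sp e d A := fun h7 => h4 ⟨h6, h7⟩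
            rw [if_pos h6, if_neg h7, add_zero]; exact h3
          · rw [if_neg h6, zero_add]
            split_ifs
            · exact h3
            · exact h5
        have hacc : a c c = 0 := by simp only [ha]; rw [if_neg (sp_self c A)]
        have haee : a e e = 0 := by simp only [ha]; rw [if_neg (sp_self e A)]
        have hace : a c e = 0 := by simp only [ha, hWce]; simp
        have hrow : ∀ x : X, ∑ y : X, a x y ≤
            (if x = c then ∑ y : X, a c y else 0) + (if x = e then ∑ y : X, a e y else 0)
              + (if x = c ∨ x = e then 0 else s / 2 * m) := by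
          intro x
          by_cases h1 : x = c
          · subst h1
            simp [hce]
          · by_cases h2 : x = e
            · subst h2; simp [Ne.symm hce]
            · have h3 : ∑ y : X, a x y = a c x + a e x := by
                have h4 : ∑ y : X, a x y = ∑ y ∈ ({c, e} : Finset X), a x y := by
                  symm
                  apply Finset.sum_subset (Finset.subset_univ _)
                  intro y _ hy
                  simp only [Finset.mem_insert, Finset.mem_singleton, not_or] at hy
                  simp only [ha, hW3 x y h1 h2 hy.1 hy.2]; simp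
                rw [h4, Finset.sum_pair hce, hasymm x c, hasymm x e]
              rw [h3]
              simp only [h1, h2, if_false, or_self, zero_add]
              exact had x h1 h2
        have hcs : ∀ F : ℝ, ∑ x : X, (if x = c ∨ x = e then 0 else F) = (K - 2) * F := by
          intro F
          have : ∀ x : X, (if x = c ∨ x = e then 0 else F)
              = F - (if x = c then F else 0) - (if x = e then F else 0) := by
            intro x
            by_cases h1 : x = c
            · subst h1; simp [hce]
            · by_cases h2 : x = e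
              · subst h2; simp [Ne.symm hce]
              · simp [h1, h2]
          simp only [this, Finset.sum_sub_distrib, Finset.sum_ite_eq', Finset.mem_univ, if_true,
            Finset.sum_const, Finset.card_univ, nsmul_eq_mul]
          ring
        have hce2 : ∑ y : X, a c y + ∑ y : X, a e y ≤ (K - 2) * (s / 2 * m) := by
          rw [← Finset.sum_add_distrib, ← hcs]
          refine Finset.sum_le_sum fun y _ => ?_
          by_cases h1 : y = c
          · subst h1; rw [hacc, hasymm e y, hace]; simp
          · by_cases h2 : y = e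
            · subst h2; rw [haee, hace]; simp
            · simp only [h1, h2, or_self, if_false]; exact had y h1 h2
        have htot : ∑ x : X, ∑ y : X, a x y ≤ s * (K - 2) * m := by
          calc ∑ x : X, ∑ y : X, a x y ≤ ∑ x : X, ((if x = c then ∑ y : X, a c y else 0)
                + (if x = e then ∑ y : X, a e y else 0) + (if x = c ∨ x = e then 0 else s / 2 * m)) :=
                Finset.sum_le_sum fun x _ => hrow x
            _ = ∑ y : X, a c y + ∑ y : X, a e y + (K - 2) * (s / 2 * m) := by
                rw [Finset.sum_add_distrib, Finset.sum_add_distrib, Finset.sum_ite_eq',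
                  Finset.sum_ite_eq', if_pos (Finset.mem_univ _), if_pos (Finset.mem_univ _), hcs]
            _ ≤ (K - 2) * (s / 2 * m) + (K - 2) * (s / 2 * m) := by linarith
            _ = s * (K - 2) * m := by ring
        calc ν * |h A| = |ν * h A| := by rw [abs_mul, abs_of_pos hνpos]
          _ ≤ ∑ x : X, ∑ y : X, a x y := by
              rw [e1]
              refine (Finset.abs_sum_le_sum_abs _ _).trans (Finset.sum_le_sum fun x _ => ?_)
              refine (Finset.abs_sum_le_sum_abs _ _).trans (Finset.sum_le_sum fun y _ => ?_)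
              simp only [ha]
              split_ifs <;> simp
          _ ≤ _ := htot
      have hm1 : m = 0 := by
        have h1 := hmain A1 hA1mem
        rw [← hm] at h1
        by_contra hne
        have : 0 < m := lt_of_le_of_ne hm0 (Ne.symm hne)
        nlinarith
      intro A hA
      have h1 := hmax A ((hmemJ A).mpr hA)
      rw [hm1] at h1
      have h2 : h A = 0 := abs_eq_zero.mp (le_antisymm h1 (abs_nonneg _))
      simp only [hh] at h2
      linarith
    have hconst := const_of_tr_inv p u hinv
    ext A
    by_cases hA : A ∈ J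
    · have h1 : ∑ B ∈ J, u B = ∑ B ∈ J, u A :=
        Finset.sum_congr rfl fun B hB => hconst B A ((hmemJ B).mp hB) ((hmemJ A).mp hA)
      rw [hz, Finset.sum_const, nsmul_eq_mul] at h1
      rcases mul_eq_zero.mp h1.symm with h2 | h2
      · linarith
      · exact h2
    · exact hoff A hA
  set u : Finset X → ℝ := fun A => if A ∈ J then f A else 0 with hu
  have hmain := quad_le_of_eig T hTsymm (s * (K - 2)) heig u
  have hu1 : ∀ A ∈ J, u A = f A := fun A hA => by simp [hu, hA]
  have l1 : ∑ A : Finset X, u A ^ 2 = ∑ A ∈ J, f A ^ 2 := by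
    rw [← Finset.sum_sdiff (Finset.subset_univ J), Finset.sum_eq_zero (fun A hA => by
      simp [hu, (Finset.mem_sdiff.mp hA).2]), zero_add]
    exact Finset.sum_congr rfl fun A hA => by rw [hu1 A hA]
  have e1 : ∑ B ∈ J, u B = 0 := by
    rw [Finset.sum_congr rfl hu1]; exact hf
  rw [l1, hquad, e1] at hmain
  have l2 : ∀ x y : X, F u x y = ∑ A ∈ J, if sp x y A then f A else 0 := by
    intro x y
    rw [hFdef]
    refine Finset.sum_congr rfl fun A hA => ?_
    rw [hu1 A hA]
  simp only [l2, mul_zero, sub_zero] at hmain
  calc _ = _ := by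
        refine Finset.sum_congr rfl fun x _ => Finset.sum_congr rfl fun y _ => ?_
        exact sq _
    _ ≤ _ := hmain

end Crest.Agent.SwitchChain
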