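import Crest.Agent.SwitchChain.Avg

set_option autoImplicit false

namespace Crest.Agent.SwitchChain

open Finset

section equivAvg
variable {α L : Type*} [DecidableEq L] {Ω : Finset α} {lam : α → L}

theorem avg_equiv (e : α ≃ α) (hΩ : ∀ a, e a ∈ Ω ↔ a ∈ Ω)
    (hl : ∀ a b, lam (e a) = lam (e b) ↔ lam a = lam b) (f : α → ℝ) (a : α) :
    avg Ω lam f (e a) = avg Ω lam (fun b => f (e b)) a := by
  have h1 : cls Ω lam (e a) = (cls Ω lam a).map e.toEmbedding := by
    ext b
    rw [Finset.mem_map_equiv, mem_cls, mem_cls]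
    have h2 := hΩ (e.symm b)
    have h3 := hl (e.symm b) a
    rw [Equiv.apply_symm_apply] at h2 h3
    rw [h2, h3]
  unfold avg
  rw [h1, Finset.sum_map, Finset.card_map]
  rfl

end equivAvg

section LR

/-- binomial likelihood ratio inequality -/
theorem choose_lr (n m a b : ℕ) (hm : m ≤ n) (hba : b ≤ a) :
    n.choose b * (n - m).choose a ≤ n.choose a * (n - m).choose b := by
  -- C(n-m,a) C(n,m) = C(n,a) C(n-a,m)
  have key : ∀ c : ℕ, (n - m).choose c * n.choose m = n.choose c * (n - c).choose m := by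
    intro c
    by_cases hc : c ≤ n - m
    · have h1 := Nat.choose_mul (n := n) (k := m + c) (s := m) (by omega)
      have h2 := Nat.choose_mul (n := n) (k := m + c) (s := c) (by omega)
      have e1 : m + c - m = c := by omega
      have e2 : m + c - c = m := by omega
      have e3 : (m + c).choose m = (m + c).choose c := by
        rw [← Nat.choose_symm_of_eq_add rfl]
      rw [e1] at h1
      rw [e2] at h2
      rw [e3] at h1
      rw [mul_comm, ← h1, h2]
    · have h1 : (n - m).choose c = 0 := Nat.choose_eq_zero_of_lt (by omega)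
      have h2 : (n - c).choose m = 0 ∨ n.choose c = 0 := by
        by_cases hcn : c ≤ n
        · left; exact Nat.choose_eq_zero_of_lt (by omega)
        · right; exact Nat.choose_eq_zero_of_lt (by omega)
      rcases h2 with h2 | h2 <;> rw [h1, h2] <;> simp
  have hpos : 0 < n.choose m := Nat.choose_pos hm
  refine Nat.le_of_mul_le_mul_right ?_ hpos
  have hmono : (n - a).choose m ≤ (n - b).choose m := Nat.choose_le_choose m (by omega)
  calc n.choose b * (n - m).choose a * n.choose m
      = n.choose b * (n.choose a * (n - a).choose m) := by rw [mul_assoc, key a]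
    _ ≤ n.choose b * (n.choose a * (n - b).choose m) := by gcongr
    _ = n.choose a * (n - m).choose b * n.choose m := by rw [mul_assoc (n.choose a), key b]; ring

/-- binomial coefficient with integer lower argument -/
def chz (n : ℕ) (z : ℤ) : ℕ := if 0 ≤ z then n.choose z.toNat else 0

theorem chz_lr (n m : ℕ) (a b : ℤ) (hm : m ≤ n) (hba : b ≤ a) :
    chz n b * chz (n - m) a ≤ chz n a * chz (n - m) b := by
  unfold chz
  by_cases hb : 0 ≤ b
  · have ha : 0 ≤ a := le_trans hb hba
    simp only [hb, ha, if_true]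
    exact choose_lr n m _ _ hm (Int.toNat_le_toNat hba)
  · simp [hb]

/-- One dimensional Kantorovich estimate from likelihood ratio domination. -/
theorem kantorovich_lr (R : Finset ℕ) (w w' γ : ℕ → ℝ) (m : ℝ)
    (hW : 0 < ∑ a ∈ R, w a) (hW' : 0 < ∑ a ∈ R, w' a)
    (hlr : ∀ a ∈ R, ∀ b ∈ R, b ≤ a → w b * w' a ≤ w a * w' b)
    (hγ : ∀ a ∈ R, ∀ b ∈ R, (w a ≠ 0 ∨ w' a ≠ 0) → (w b ≠ 0 ∨ w' b ≠ 0) →
      |γ a - γ b| ≤ m * |(a : ℝ) - b|) :
    |(∑ a ∈ R, w a * γ a) / (∑ a ∈ R, w a) - (∑ a ∈ R, w' a * γ a) / (∑ a ∈ R, w' a)|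
      ≤ m * ((∑ a ∈ R, w a * (a : ℝ)) / (∑ a ∈ R, w a)
          - (∑ a ∈ R, w' a * (a : ℝ)) / (∑ a ∈ R, w' a)) := by
  set W := ∑ a ∈ R, w a with hWd
  set W' := ∑ a ∈ R, w' a with hWd'
  have hWW : 0 < W * W' := mul_pos hW hW'
  have gen : ∀ φ : ℕ → ℝ, (∑ a ∈ R, w a * φ a) / W - (∑ a ∈ R, w' a * φ a) / W'
      = (∑ a ∈ R, ∑ b ∈ R, (w a * w' b - w b * w' a) * (φ a - φ b) / 2) / (W * W') := by
    intro φ
    rw [div_sub_div _ _ hW.ne' hW'.ne']
    congr 1
    have e1 : (∑ a ∈ R, w a * φ a) * W' = ∑ a ∈ R, ∑ b ∈ R, w a * w' b * φ a := by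
      rw [hWd', Finset.sum_mul]
      refine Finset.sum_congr rfl fun a _ => ?_
      rw [Finset.mul_sum]
      exact Finset.sum_congr rfl fun b _ => by ring
    have e2 : W * (∑ a ∈ R, w' a * φ a) = ∑ a ∈ R, ∑ b ∈ R, w a * w' b * φ b := by
      rw [hWd, Finset.sum_mul]
      refine Finset.sum_congr rfl fun a _ => ?_
      rw [Finset.mul_sum]
      exact Finset.sum_congr rfl fun b _ => by ring
    have e3 : ∑ a ∈ R, ∑ b ∈ R, w a * w' b * φ a = ∑ a ∈ R, ∑ b ∈ R, w b * w' a * φ b := by
      rw [Finset.sum_comm]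
    have e4 : ∑ a ∈ R, ∑ b ∈ R, w a * w' b * φ b = ∑ a ∈ R, ∑ b ∈ R, w b * w' a * φ a := by
      rw [Finset.sum_comm]
    have e5 : ∑ a ∈ R, ∑ b ∈ R, (w a * w' b - w b * w' a) * (φ a - φ b) / 2
        = ((∑ a ∈ R, ∑ b ∈ R, w a * w' b * φ a) - (∑ a ∈ R, ∑ b ∈ R, w a * w' b * φ b)) / 2
          + ((∑ a ∈ R, ∑ b ∈ R, w b * w' a * φ b) - (∑ a ∈ R, ∑ b ∈ R, w b * w' a * φ a)) / 2 := by
      simp only [← Finset.sum_sub_distrib, Finset.sum_div, ← Finset.sum_add_distrib]
      refine Finset.sum_congr rfl fun a _ => Finset.sum_congr rfl fun b _ => ?_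
      ring
    rw [e1, e2, e5, ← e3, ← e4]; ring
  rw [gen γ, gen (fun a => (a : ℝ)), abs_div, abs_of_pos hWW, ← mul_div_assoc]
  refine div_le_div_of_nonneg_right ?_ hWW.le
  rw [Finset.mul_sum]
  refine (Finset.abs_sum_le_sum_abs _ _).trans (Finset.sum_le_sum fun a ha => ?_)
  rw [Finset.mul_sum]
  refine (Finset.abs_sum_le_sum_abs _ _).trans (Finset.sum_le_sum fun b hb => ?_)
  by_cases hz : w a * w' b - w b * w' a = 0
  · rw [hz]; simp
  · have hnz : (w a ≠ 0 ∨ w' a ≠ 0) ∧ (w b ≠ 0 ∨ w' b ≠ 0) := by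
      constructor
      · by_contra hcon
        push Not at hcon
        apply hz; rw [hcon.1, hcon.2]; ring
      · by_contra hcon
        push Not at hcon
        apply hz; rw [hcon.1, hcon.2]; ring
    have h1 := hγ a ha b hb hnz.1 hnz.2
    have h2 : |w a * w' b - w b * w' a| * |(a : ℝ) - b| = (w a * w' b - w b * w' a) * ((a : ℝ) - b) := by
      rcases le_total b a with hba | hab
      · have h3 := hlr a ha b hb hba
        have h4 : (b : ℝ) ≤ a := by exact_mod_cast hba
        rw [abs_of_nonneg (by linarith), abs_of_nonneg (by linarith)]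
      · have h3 := hlr b hb a ha hab
        have h4 : (a : ℝ) ≤ b := by exact_mod_cast hab
        rw [abs_of_nonpos (by linarith), abs_of_nonpos (by linarith)]
        ring
    rw [abs_div, abs_mul, abs_of_pos (by norm_num : (0 : ℝ) < 2)]
    have h5 : |w a * w' b - w b * w' a| * |γ a - γ b|
        ≤ |w a * w' b - w b * w' a| * (m * |(a : ℝ) - b|) :=
      mul_le_mul_of_nonneg_left h1 (abs_nonneg _)
    have h6 : |w a * w' b - w b * w' a| * (m * |(a : ℝ) - b|)
        = m * ((w a * w' b - w b * w' a) * ((a : ℝ) - b)) := by rw [← h2]; ring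
    rw [h6] at h5
    linarith

end LR


section color

variable {C : Type*} [Fintype C] [DecidableEq C]

/-- colourings with prescribed signed class sums -/
def colorings (s : C → ℤ) (t : Fin 3 → ℤ) : Finset (C → Fin 3) :=
  univ.filter fun σ => ∀ k, ∑ x, (if σ x = k then s x else 0) = t k

/-- the set of columns coloured `k` -/
def kset (k : Fin 3) (σ : C → Fin 3) : Finset C := univ.filter fun x => σ x = k

theorem mem_kset {k : Fin 3} {σ : C → Fin 3} {x : C} : x ∈ kset k σ ↔ σ x = k := by
  unfold kset; simp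

theorem kset_eq_iff {k : Fin 3} {σ σ' : C → Fin 3} :
    kset k σ = kset k σ' ↔ ∀ x, (σ x = k ↔ σ' x = k) := by
  constructor
  · intro h x; rw [← mem_kset, ← mem_kset, h]
  · intro h; ext x; rw [mem_kset, mem_kset]; exact h x

/-- act on colourings by a permutation of the columns -/
def recol (τ : Equiv.Perm C) : (C → Fin 3) ≃ (C → Fin 3) := Equiv.arrowCongr τ.symm (Equiv.refl _)

theorem recol_apply (τ : Equiv.Perm C) (σ : C → Fin 3) (x : C) : recol τ σ x = σ (τ x) := by
  simp [recol]

variable {s : C → ℤ} {t : Fin 3 → ℤ}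

theorem mem_colorings {σ : C → Fin 3} :
    σ ∈ colorings s t ↔ ∀ k, ∑ x, (if σ x = k then s x else 0) = t k := by
  unfold colorings; simp

theorem recol_mem (τ : Equiv.Perm C) (hτ : ∀ x, s (τ x) = s x) (σ : C → Fin 3) :
    recol τ σ ∈ colorings s t ↔ σ ∈ colorings s t := by
  rw [mem_colorings, mem_colorings]
  refine forall_congr' fun k => ?_
  have : ∑ x, (if recol τ σ x = k then s x else 0) = ∑ x, (if σ x = k then s x else 0) := by
    rw [← Equiv.sum_comp τ (fun x => if σ x = k then s x else 0)]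
    refine Finset.sum_congr rfl fun x _ => ?_
    rw [recol_apply, hτ]
  rw [this]

theorem swap_sign {x y : C} (hxy : s x = s y) (z : C) : s (Equiv.swap x y z) = s z := by
  by_cases h1 : z = x
  · subst h1; rw [Equiv.swap_apply_left, hxy]
  · by_cases h2 : z = y
    · subst h2; rw [Equiv.swap_apply_right, hxy]
    · rw [Equiv.swap_apply_of_ne_of_ne h1 h2]

theorem kset_recol_eq_iff (τ : Equiv.Perm C) (k : Fin 3) (σ σ' : C → Fin 3) :
    kset k (recol τ σ) = kset k (recol τ σ') ↔ kset k σ = kset k σ' := by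
  rw [kset_eq_iff, kset_eq_iff]
  constructor
  · intro h x
    have := h (τ.symm x)
    rw [recol_apply, recol_apply, Equiv.apply_symm_apply] at this
    exact this
  · intro h x
    rw [recol_apply, recol_apply]; exact h (τ x)

/-- Step A: eigenfunction components are invariant under same sign transpositions. -/
theorem colA (g : Fin 3 → (C → Fin 3) → ℝ) (lam : ℝ) (hlam : 1 < lam)
    (hmeas : ∀ k σ σ', σ ∈ colorings s t → σ' ∈ colorings s t → kset k σ = kset k σ' → g k σ = g k σ')
    (heq : ∀ k, ∀ σ ∈ colorings s t,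
      ∑ j ∈ univ.filter (fun j => j ≠ k), avg (colorings s t) (kset k) (g j) σ = lam * g k σ)
    (x y : C) (hxy : s x = s y) :
    ∀ k, ∀ σ ∈ colorings s t, g k (recol (Equiv.swap x y) σ) = g k σ := by
  set Ω := colorings s t with hΩ
  set τ := Equiv.swap x y with hτ
  have hτs : ∀ z, s (τ z) = s z := swap_sign hxy
  rcases Ω.eq_empty_or_nonempty with hE | hNE
  · intro k σ hσ; rw [hE] at hσ; exact absurd hσ (Finset.notMem_empty _)
  have hmem : ∀ σ, recol τ σ ∈ Ω ↔ σ ∈ Ω := recol_mem τ hτs
  set h : Fin 3 → (C → Fin 3) → ℝ := fun k σ => g k σ - g k (recol τ σ) with hh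
  obtain ⟨p, hp, hpmax⟩ := Finset.exists_max_image ((univ : Finset (Fin 3)) ×ˢ Ω)
    (fun q => |h q.1 q.2|) ⟨(0, hNE.choose), by simp [hNE.choose_spec]⟩
  set m := |h p.1 p.2| with hm
  have hm0 : 0 ≤ m := abs_nonneg _
  have hle : ∀ k, ∀ σ ∈ Ω, |h k σ| ≤ m := fun k σ hσ => hpmax (k, σ) (by simp [hσ])
  have hzero : ∀ k, ∀ σ ∈ Ω, (σ x = k ↔ σ y = k) → h k σ = 0 := by
    intro k σ hσ hiff
    have : kset k σ = kset k (recol τ σ) := by
      rw [kset_eq_iff]
      intro z
      rw [recol_apply]
      by_cases h1 : z = x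
      · subst h1; rw [hτ, Equiv.swap_apply_left]; exact hiff
      · by_cases h2 : z = y
        · subst h2; rw [hτ, Equiv.swap_apply_right]; exact hiff.symm
        · rw [hτ, Equiv.swap_apply_of_ne_of_ne h1 h2]
    simp only [hh]
    rw [hmeas k σ _ hσ ((hmem σ).mpr hσ) this, sub_self]
  have hmain : ∀ k, ∀ σ ∈ Ω, lam * |h k σ| ≤ m := by
    intro k σ hσ
    by_cases hiff : (σ x = k ↔ σ y = k)
    · rw [hzero k σ hσ hiff]; simpa using hm0
    have e1 : lam * h k σ = avg Ω (kset k) (fun ω => ∑ j ∈ univ.filter (fun j => j ≠ k), h j ω) σ := by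
      have h1 := heq k σ hσ
      have h2 := heq k (recol τ σ) ((hmem σ).mpr hσ)
      have h3 : ∀ j, avg Ω (kset k) (g j) (recol τ σ) = avg Ω (kset k) (fun ω => g j (recol τ ω)) σ :=
        fun j => avg_equiv (recol τ) hmem (kset_recol_eq_iff τ k) (g j) σ
      simp only [h3] at h2
      simp only [hh, mul_sub]
      rw [← h1, ← h2, avg_sum, ← Finset.sum_sub_distrib]
      refine Finset.sum_congr rfl fun j _ => ?_
      rw [avg_sub]
    have e2 : |lam * h k σ| ≤ m := by
      rw [e1]
      refine (abs_avg_le _ _).trans (avg_le_of_le hσ ?_)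
      intro ω hω
      rw [mem_cls] at hω
      have hkω := kset_eq_iff.mp hω.2
      -- the colour of the element of {x,y} not coloured k
      have key : ∃ j0, j0 ≠ k ∧ ∀ j, j ≠ k → j ≠ j0 → (ω x = j ↔ ω y = j) := by
        by_cases hx : ω x = k
        · have hy : ω y ≠ k := fun hy => hiff ⟨fun _ => (hkω y).mp hy, fun _ => (hkω x).mp hx⟩
          refine ⟨ω y, hy, fun j hjk hj => ?_⟩
          constructor
          · intro h5; exact absurd (h5.symm.trans hx) hjk
          · intro h5; exact absurd h5.symm hj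
        · have hy : ω y = k := by
            by_contra hy
            exact hiff ⟨fun h5 => absurd ((hkω x).mpr h5) hx, fun h5 => absurd ((hkω y).mpr h5) hy⟩
          refine ⟨ω x, hx, fun j hjk hj => ?_⟩
          constructor
          · intro h5; exact absurd h5.symm hj
          · intro h5; exact absurd (h5.symm.trans hy) hjk
      obtain ⟨j0, hj0k, hj0⟩ := key
      have e3 : ∑ j ∈ univ.filter (fun j => j ≠ k), h j ω = h j0 ω := by
        refine Finset.sum_eq_single j0 ?_ ?_
        · intro j hj hne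
          exact hzero j ω hω.1 (hj0 j (by simpa using hj) hne)
        · intro hcon
          exact absurd (by simpa using hj0k) hcon
      rw [e3]
      exact hle j0 ω hω.1
    rwa [abs_mul, abs_of_pos (by linarith : (0:ℝ) < lam)] at e2
  have hm1 : m = 0 := by
    have hp2 : p.2 ∈ Ω := (Finset.mem_product.mp hp).2
    have h1 := hmain p.1 p.2 hp2
    rw [← hm] at h1
    by_contra hne
    have : 0 < m := lt_of_le_of_ne hm0 (Ne.symm hne)
    nlinarith
  intro k σ hσ
  have h1 := hle k σ hσ
  rw [hm1] at h1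
  have h2 : h k σ = 0 := abs_eq_zero.mp (le_antisymm h1 (abs_nonneg _))
  simp only [hh] at h2
  linarith

/-- number of negative columns coloured `k` -/
def yk (s : C → ℤ) (k : Fin 3) (σ : C → Fin 3) : ℕ :=
  (univ.filter fun x => s x = -1 ∧ σ x = k).card

/-- number of positive columns coloured `k` -/
def xk (s : C → ℤ) (k : Fin 3) (σ : C → Fin 3) : ℕ :=
  (univ.filter fun x => s x = 1 ∧ σ x = k).card

theorem xk_sub_yk (hs : ∀ x, s x = 1 ∨ s x = -1) {σ : C → Fin 3} (hσ : σ ∈ colorings s t) (k : Fin 3) :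
    (xk s k σ : ℤ) - yk s k σ = t k := by
  rw [← mem_colorings.mp hσ k]
  unfold xk yk
  rw [Finset.card_filter, Finset.card_filter]
  push_cast
  rw [← Finset.sum_sub_distrib]
  refine Finset.sum_congr rfl fun x _ => ?_
  rcases hs x with h | h <;> by_cases hk : σ x = k <;> simp [h, hk]


theorem yk_recol (τ : Equiv.Perm C) (hτ : ∀ x, s (τ x) = s x) (k : Fin 3) (σ : C → Fin 3) :
    yk s k (recol τ σ) = yk s k σ := by
  unfold yk
  refine Finset.card_nbij' τ τ.symm ?_ ?_ ?_ ?_
  · intro x hx
    simp only [Finset.coe_filter, Finset.mem_univ, true_and, Set.mem_setOf_eq] at hx ⊢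
    rw [recol_apply] at hx
    rw [hτ]; exact hx
  · intro x hx
    simp only [Finset.coe_filter, Finset.mem_univ, true_and, Set.mem_setOf_eq] at hx ⊢
    rw [recol_apply, Equiv.apply_symm_apply]
    have := hτ (τ.symm x)
    rw [Equiv.apply_symm_apply] at this
    rw [← this]; exact hx
  · intro x _; simp
  · intro x _; simp

theorem card_kset (hs : ∀ x, s x = 1 ∨ s x = -1) (k : Fin 3) (σ : C → Fin 3) :
    (kset k σ).card = xk s k σ + yk s k σ := by
  unfold xk yk
  rw [← Finset.card_union_of_disjoint]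
  · congr 1
    ext x
    rw [mem_kset]
    simp only [Finset.mem_union, Finset.mem_filter, Finset.mem_univ, true_and]
    rcases hs x with h | h <;> simp [h]
  · rw [Finset.disjoint_left]
    intro x hx hx'
    simp only [Finset.mem_filter, Finset.mem_univ, true_and] at hx hx'
    have := hx.1.symm.trans hx'.1
    norm_num at this

/-- Step B1: the components depend only on `yk`. -/
theorem colB1 (hs : ∀ x, s x = 1 ∨ s x = -1) (g : Fin 3 → (C → Fin 3) → ℝ)
    (hmeas : ∀ k σ σ', σ ∈ colorings s t → σ' ∈ colorings s t → kset k σ = kset k σ' → g k σ = g k σ')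
    (hinv : ∀ x y : C, s x = s y → ∀ k, ∀ σ ∈ colorings s t, g k (recol (Equiv.swap x y) σ) = g k σ) :
    ∀ k σ σ', σ ∈ colorings s t → σ' ∈ colorings s t → yk s k σ = yk s k σ' → g k σ = g k σ' := by
  have main : ∀ n : ℕ, ∀ k σ σ', (kset k σ \ kset k σ').card = n → σ ∈ colorings s t →
      σ' ∈ colorings s t → yk s k σ = yk s k σ' → g k σ = g k σ' := by
    intro n
    induction n with
    | zero =>
      intro k σ σ' h0 hσ hσ' hy
      have h1 : kset k σ ⊆ kset k σ' := by
        rw [← Finset.sdiff_eq_empty_iff_subset]; exact Finset.card_eq_zero.mp h0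
      refine hmeas k σ σ' hσ hσ' (Finset.eq_of_subset_of_card_le h1 ?_)
      have hx1 := xk_sub_yk hs hσ k
      have hx2 := xk_sub_yk hs hσ' k
      rw [card_kset hs, card_kset hs]
      omega
    | succ n ih =>
      intro k σ σ' h0 hσ hσ' hy
      obtain ⟨x, hx⟩ : (kset k σ \ kset k σ').Nonempty := by
        rw [← Finset.card_pos]; omega
      rw [Finset.mem_sdiff, mem_kset, mem_kset] at hx
      have hx1 := xk_sub_yk hs hσ k
      have hx2 := xk_sub_yk hs hσ' k
      set A := univ.filter fun z => s z = s x ∧ σ z = k with hA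
      set A' := univ.filter fun z => s z = s x ∧ σ' z = k with hA'
      have hcard : A.card = A'.card := by
        rcases hs x with h | h
        · have e1 : A.card = xk s k σ := by rw [hA, h]; rfl
          have e2 : A'.card = xk s k σ' := by rw [hA', h]; rfl
          rw [e1, e2]; omega
        · have e1 : A.card = yk s k σ := by rw [hA, h]; rfl
          have e2 : A'.card = yk s k σ' := by rw [hA', h]; rfl
          rw [e1, e2, hy]
      have hxA : x ∈ A \ A' := by
        simp only [hA, hA', Finset.mem_sdiff, Finset.mem_filter, Finset.mem_univ, true_and]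
        exact ⟨hx.1, hx.2⟩
      obtain ⟨y, hyA⟩ : (A' \ A).Nonempty := by
        rw [← Finset.card_pos]
        have h2 := Finset.card_sdiff_add_card_inter A A'
        have h3 := Finset.card_sdiff_add_card_inter A' A
        rw [Finset.inter_comm] at h3
        have h4 : 0 < (A \ A').card := Finset.card_pos.mpr ⟨x, hxA⟩
        omega
      simp only [hA, hA', Finset.mem_sdiff, Finset.mem_filter, Finset.mem_univ, true_and, not_and] at hyA
      have hsxy : s x = s y := hyA.1.1.symm
      have hyk : σ' y = k := hyA.1.2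
      have hyk' : σ y ≠ k := hyA.2 hyA.1.1
      have hτ : ∀ z, s (Equiv.swap x y z) = s z := swap_sign hsxy
      have hmem1 : recol (Equiv.swap x y) σ ∈ colorings s t := (recol_mem _ hτ σ).mpr hσ
      have hset : kset k (recol (Equiv.swap x y) σ) \ kset k σ' = (kset k σ \ kset k σ').erase x := by
        ext z
        simp only [Finset.mem_sdiff, Finset.mem_erase, mem_kset, recol_apply]
        by_cases h1 : z = x
        · subst h1
          rw [Equiv.swap_apply_left]
          simp [hyk']
        · by_cases h2 : z = y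
          · subst h2
            rw [Equiv.swap_apply_right]
            simp [hyk]
          · rw [Equiv.swap_apply_of_ne_of_ne h1 h2]; simp [h1]
      have h5 := ih k (recol (Equiv.swap x y) σ) σ' (by
        rw [hset, Finset.card_erase_of_mem (by
          rw [Finset.mem_sdiff, mem_kset, mem_kset]; exact hx), h0]; omega) hmem1 hσ'
        (by rw [yk_recol _ hτ]; exact hy)
      rw [← h5, hinv x y hsxy k σ hσ]
  intro k σ σ' hσ hσ' hy
  exact main _ k σ σ' rfl hσ hσ' hy

theorem third_spec : ∀ k j : Fin 3, j ≠ k → (-(k + j) ≠ k ∧ -(k + j) ≠ j ∧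
    ∀ i : Fin 3, i = k ∨ i = j ∨ i = -(k + j)) := by decide

theorem sum_fin3 {M : Type*} [AddCommMonoid M] (F : Fin 3 → M) (k j : Fin 3) (h : j ≠ k) :
    ∑ i, F i = F k + F j + F (-(k + j)) := by
  have h1 := third_spec k j h
  have h2 : (univ : Finset (Fin 3)) = {k, j, -(k + j)} := by
    ext i
    simp only [Finset.mem_univ, Finset.mem_insert, Finset.mem_singleton, true_iff]
    exact h1.2.2 i
  rw [h2, Finset.sum_insert, Finset.sum_insert, Finset.sum_singleton, add_assoc]
  · simp only [Finset.mem_singleton]; exact fun h => h1.2.1 h.symm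
  · simp only [Finset.mem_insert, Finset.mem_singleton, not_or]
    exact ⟨fun h' => h h'.symm, fun h => h1.1 h.symm⟩

theorem sum_ne_fin3 {M : Type*} [AddCommMonoid M] (F : Fin 3 → M) (k j : Fin 3) (h : j ≠ k) :
    ∑ i ∈ univ.filter (fun i => i ≠ k), F i = F j + F (-(k + j)) := by
  have h1 := third_spec k j h
  have h2 : (univ : Finset (Fin 3)).filter (fun i => i ≠ k) = {j, -(k + j)} := by
    ext i
    simp only [Finset.mem_filter, Finset.mem_univ, Finset.mem_insert, Finset.mem_singleton, true_and]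
    constructor
    · intro hi
      rcases h1.2.2 i with h3 | h3 | h3
      · exact absurd h3 hi
      · exact Or.inl h3
      · exact Or.inr h3
    · rintro (h3 | h3)
      · rw [h3]; exact h
      · rw [h3]; exact h1.1
  rw [h2, Finset.sum_insert, Finset.sum_singleton]
  simp only [Finset.mem_singleton]; exact fun h => h1.2.1 h.symm

theorem sum_all_colors (ω : C → Fin 3) :
    ∑ i : Fin 3, ∑ x, (if ω x = i then s x else 0) = ∑ x, s x := by
  rw [Finset.sum_comm]
  refine Finset.sum_congr rfl fun x _ => ?_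
  rw [Finset.sum_ite_eq]; simp

/-- Step B2: counting. -/
theorem count_cls (hs : ∀ x, s x = 1 ∨ s x = -1) {σ : C → Fin 3} (hσ : σ ∈ colorings s t)
    (k j : Fin 3) (hjk : j ≠ k) (a : ℕ) :
    ((cls (colorings s t) (kset k) σ).filter (fun ω => yk s j ω = a)).card
      = (univ.filter fun x => s x = -1 ∧ σ x ≠ k).card.choose a
        * chz (univ.filter fun x => s x = 1 ∧ σ x ≠ k).card ((a : ℤ) + t j) := by
  set Nn := univ.filter fun x => s x = -1 ∧ σ x ≠ k with hNn
  set Np := univ.filter fun x => s x = 1 ∧ σ x ≠ k with hNp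
  by_cases hneg : 0 ≤ (a : ℤ) + t j
  swap
  · unfold chz
    rw [if_neg hneg, mul_zero, Finset.card_eq_zero, Finset.filter_eq_empty_iff]
    intro ω hω hy
    have := xk_sub_yk hs (mem_cls.mp hω).1 j
    rw [hy] at this
    apply hneg
    have h2 : (0 : ℤ) ≤ xk s j ω := Int.natCast_nonneg _
    linarith
  obtain ⟨b, hb⟩ := Int.eq_ofNat_of_zero_le hneg
  unfold chz
  rw [if_pos hneg, hb, Int.toNat_natCast, ← Finset.card_powersetCard, ← Finset.card_powersetCard,
    ← Finset.card_product]
  have h3 := third_spec k j hjk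
  set l := -(k + j) with hl
  refine Finset.card_nbij' (fun ω => (univ.filter (fun x => s x = -1 ∧ ω x = j),
      univ.filter (fun x => s x = 1 ∧ ω x = j)))
    (fun D => fun x => if σ x = k then k else if x ∈ D.1 ∪ D.2 then j else l) ?_ ?_ ?_ ?_
  · intro ω hω
    rw [Finset.mem_coe, Finset.mem_filter, mem_cls, kset_eq_iff] at hω
    obtain ⟨⟨hωΩ, hωk⟩, hy⟩ := hω
    have hx := xk_sub_yk hs hωΩ j
    rw [Finset.mem_coe, Finset.mem_product, Finset.mem_powersetCard, Finset.mem_powersetCard]
    refine ⟨⟨?_, hy⟩, ?_, ?_⟩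
    · intro x hx
      simp only [Finset.mem_filter, Finset.mem_univ, true_and, hNn] at hx ⊢
      refine ⟨hx.1, fun h => ?_⟩
      exact hjk (hx.2.symm.trans ((hωk x).mpr h))
    · intro x hx
      simp only [Finset.mem_filter, Finset.mem_univ, true_and, hNp] at hx ⊢
      refine ⟨hx.1, fun h => ?_⟩
      exact hjk (hx.2.symm.trans ((hωk x).mpr h))
    · rw [hy] at hx
      have h4 : (univ.filter (fun x => s x = 1 ∧ ω x = j)).card = xk s j ω := rfl
      rw [h4]; omega
  · rintro ⟨D1, D2⟩ hD
    rw [Finset.mem_coe, Finset.mem_product, Finset.mem_powersetCard, Finset.mem_powersetCard] at hD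
    obtain ⟨⟨hD1, hD1c⟩, hD2, hD2c⟩ := hD
    simp only at hD1 hD1c hD2 hD2c
    have hD1' : ∀ x ∈ D1, s x = -1 ∧ σ x ≠ k := fun x hx => by
      have := hD1 hx; simpa [hNn] using this
    have hD2' : ∀ x ∈ D2, s x = 1 ∧ σ x ≠ k := fun x hx => by
      have := hD2 hx; simpa [hNp] using this
    set ω : C → Fin 3 := fun x => if σ x = k then k else if x ∈ D1 ∪ D2 then j else l with hω
    have hωk : ∀ x, ω x = k ↔ σ x = k := by
      intro x
      simp only [hω]
      by_cases h1 : σ x = k
      · simp [h1]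
      · rw [if_neg h1]
        split_ifs
        · exact ⟨fun h => absurd h hjk, fun h => absurd h h1⟩
        · exact ⟨fun h => absurd h h3.1, fun h => absurd h h1⟩
    have hωj : ∀ x, ω x = j ↔ x ∈ D1 ∪ D2 := by
      intro x
      simp only [hω]
      by_cases h1 : σ x = k
      · rw [if_pos h1]
        constructor
        · intro h; exact absurd h.symm hjk
        · intro h
          rcases Finset.mem_union.mp h with h | h
          · exact absurd h1 (hD1' x h).2
          · exact absurd h1 (hD2' x h).2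
      · rw [if_neg h1]
        by_cases h2 : x ∈ D1 ∪ D2
        · simp [h2]
        · rw [if_neg h2]
          exact ⟨fun h => absurd h h3.2.1, fun h => absurd h h2⟩
    have hf1 : univ.filter (fun x => s x = -1 ∧ ω x = j) = D1 := by
      ext x
      simp only [Finset.mem_filter, Finset.mem_univ, true_and, hωj, Finset.mem_union]
      constructor
      · rintro ⟨h1, h2 | h2⟩
        · exact h2
        · have := (hD2' x h2).1; rw [h1] at this; norm_num at this
      · intro h; exact ⟨(hD1' x h).1, Or.inl h⟩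
    have hf2 : univ.filter (fun x => s x = 1 ∧ ω x = j) = D2 := by
      ext x
      simp only [Finset.mem_filter, Finset.mem_univ, true_and, hωj, Finset.mem_union]
      constructor
      · rintro ⟨h1, h2 | h2⟩
        · have := (hD1' x h2).1; rw [h1] at this; norm_num at this
        · exact h2
      · intro h; exact ⟨(hD2' x h).1, Or.inr h⟩
    have hsumk : ∑ x, (if ω x = k then s x else 0) = t k := by
      rw [← mem_colorings.mp hσ k]
      refine Finset.sum_congr rfl fun x _ => ?_
      simp only [hωk x]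
    have hsumj : ∑ x, (if ω x = j then s x else 0) = t j := by
      have e1 : ∑ x, (if ω x = j then s x else 0)
          = ((univ.filter (fun x => s x = 1 ∧ ω x = j)).card : ℤ)
            - ((univ.filter (fun x => s x = -1 ∧ ω x = j)).card : ℤ) := by
        rw [Finset.card_filter, Finset.card_filter]
        push_cast
        rw [← Finset.sum_sub_distrib]
        refine Finset.sum_congr rfl fun x _ => ?_
        rcases hs x with h | h <;> by_cases hk : ω x = j <;> simp [h, hk]
      rw [e1, hf1, hf2, hD1c, hD2c]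
      linarith
    have hsuml : ∑ x, (if ω x = l then s x else 0) = t l := by
      have e1 := sum_all_colors (s := s) ω
      have e2 := sum_all_colors (s := s) σ
      rw [sum_fin3 _ k j hjk] at e1 e2
      have e3 := mem_colorings.mp hσ
      rw [e3 k, e3 j, e3 (-(k + j))] at e2
      rw [hsumk, hsumj] at e1
      rw [← hl] at e1 e2
      linarith
    rw [Finset.mem_coe, Finset.mem_filter, mem_cls, kset_eq_iff]
    refine ⟨⟨?_, hωk⟩, ?_⟩
    · rw [mem_colorings]
      intro i
      rcases h3.2.2 i with h | h | h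
      · rw [h]; exact hsumk
      · rw [h]; exact hsumj
      · rw [h]; exact hsuml
    · show (univ.filter (fun x => s x = -1 ∧ ω x = j)).card = a
      rw [hf1, hD1c]
  · intro ω hω
    rw [Finset.mem_coe, Finset.mem_filter, mem_cls, kset_eq_iff] at hω
    obtain ⟨⟨hωΩ, hωk⟩, hy⟩ := hω
    funext x
    simp only [Finset.mem_union, Finset.mem_filter, Finset.mem_univ, true_and]
    by_cases h1 : σ x = k
    · rw [if_pos h1]; exact ((hωk x).mpr h1).symm
    · rw [if_neg h1]
      have h1' : ω x ≠ k := fun h => h1 ((hωk x).mp h)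
      by_cases h2 : ω x = j
      · have : (s x = -1 ∧ ω x = j) ∨ (s x = 1 ∧ ω x = j) := by
          rcases hs x with h | h
          · exact Or.inr ⟨h, h2⟩
          · exact Or.inl ⟨h, h2⟩
        rw [if_pos this, h2]
      · have : ¬ ((s x = -1 ∧ ω x = j) ∨ (s x = 1 ∧ ω x = j)) := by
          rintro (h | h) <;> exact h2 h.2
        rw [if_neg this]
        rcases h3.2.2 (ω x) with h | h | h
        · exact absurd h h1'
        · exact absurd h h2
        · exact h.symm
  · rintro ⟨D1, D2⟩ hD
    rw [Finset.mem_coe, Finset.mem_product, Finset.mem_powersetCard, Finset.mem_powersetCard] at hD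
    obtain ⟨⟨hD1, hD1c⟩, hD2, hD2c⟩ := hD
    simp only at hD1 hD1c hD2 hD2c
    have hD1' : ∀ x ∈ D1, s x = -1 ∧ σ x ≠ k := fun x hx => by
      have := hD1 hx; simpa [hNn] using this
    have hD2' : ∀ x ∈ D2, s x = 1 ∧ σ x ≠ k := fun x hx => by
      have := hD2 hx; simpa [hNp] using this
    have hωj : ∀ x, (if σ x = k then k else if x ∈ D1 ∪ D2 then j else l) = j ↔ x ∈ D1 ∪ D2 := by
      intro x
      by_cases h1 : σ x = k
      · rw [if_pos h1]
        constructor
        · intro h; exact absurd h.symm hjk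
        · intro h
          rcases Finset.mem_union.mp h with h | h
          · exact absurd h1 (hD1' x h).2
          · exact absurd h1 (hD2' x h).2
      · rw [if_neg h1]
        by_cases h2 : x ∈ D1 ∪ D2
        · simp [h2]
        · rw [if_neg h2]
          exact ⟨fun h => absurd h h3.2.1, fun h => absurd h h2⟩
    refine Prod.ext ?_ ?_
    · ext x
      show x ∈ univ.filter (fun x => s x = -1 ∧
        (if σ x = k then k else if x ∈ D1 ∪ D2 then j else l) = j) ↔ x ∈ D1
      rw [Finset.mem_filter, hωj x, Finset.mem_union]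
      constructor
      · rintro ⟨-, h1, h2 | h2⟩
        · exact h2
        · have := (hD2' x h2).1; rw [h1] at this; norm_num at this
      · intro h; exact ⟨Finset.mem_univ _, (hD1' x h).1, Or.inl h⟩
    · ext x
      show x ∈ univ.filter (fun x => s x = 1 ∧
        (if σ x = k then k else if x ∈ D1 ∪ D2 then j else l) = j) ↔ x ∈ D2
      rw [Finset.mem_filter, hωj x, Finset.mem_union]
      constructor
      · rintro ⟨-, h1, h2 | h2⟩
        · have := (hD1' x h2).1; rw [h1] at this; norm_num at this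
        · exact h2
      · intro h; exact ⟨Finset.mem_univ _, (hD2' x h).1, Or.inr h⟩

theorem avg_fiber (hs : ∀ x, s x = 1 ∨ s x = -1) {σ : C → Fin 3} (hσ : σ ∈ colorings s t)
    (k j : Fin 3) (hjk : j ≠ k) (φ : ℕ → ℝ) :
    avg (colorings s t) (kset k) (fun ω => φ (yk s j ω)) σ
      = (∑ a ∈ range (Fintype.card C + 1),
          (((univ.filter fun x => s x = -1 ∧ σ x ≠ k).card.choose a
            * chz (univ.filter fun x => s x = 1 ∧ σ x ≠ k).card ((a : ℤ) + t j) : ℕ) : ℝ) * φ a)
        / (∑ a ∈ range (Fintype.card C + 1),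
          (((univ.filter fun x => s x = -1 ∧ σ x ≠ k).card.choose a
            * chz (univ.filter fun x => s x = 1 ∧ σ x ≠ k).card ((a : ℤ) + t j) : ℕ) : ℝ)) := by
  have hmaps : ∀ ω ∈ cls (colorings s t) (kset k) σ, yk s j ω ∈ range (Fintype.card C + 1) := by
    intro ω _
    rw [Finset.mem_range]
    exact Nat.lt_succ_of_le (Finset.card_le_univ _)
  unfold avg
  congr 1
  · rw [← Finset.sum_fiberwise_of_maps_to hmaps]
    refine Finset.sum_congr rfl fun a _ => ?_
    rw [← count_cls hs hσ k j hjk a, ← nsmul_eq_mul, ← Finset.sum_const]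
    refine Finset.sum_congr rfl fun ω hω => ?_
    rw [(Finset.mem_filter.mp hω).2]
  · rw [Finset.card_eq_sum_card_fiberwise hmaps]
    push_cast
    refine Finset.sum_congr rfl fun a _ => ?_
    have := count_cls hs hσ k j hjk a
    rw [this]; push_cast; rfl

theorem card_ne_eq (e : ℤ) (k : Fin 3) (σ : C → Fin 3) :
    (univ.filter fun x => s x = e ∧ σ x ≠ k).card + (univ.filter fun x => s x = e ∧ σ x = k).card
      = (univ.filter fun x => s x = e).card := by
  rw [← Finset.card_union_of_disjoint]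
  · congr 1
    ext x
    simp only [Finset.mem_union, Finset.mem_filter, Finset.mem_univ, true_and]
    tauto
  · rw [Finset.disjoint_left]
    intro x hx hx'
    simp only [Finset.mem_filter, Finset.mem_univ, true_and] at hx hx'
    exact hx.2 hx'.2

theorem sum_yk (k : Fin 3) (σ : C → Fin 3) :
    (yk s k σ : ℝ) + ∑ j ∈ univ.filter (fun j => j ≠ k), (yk s j σ : ℝ)
      = ((univ.filter fun x => s x = -1).card : ℝ) := by
  have h1 : ∑ i : Fin 3, yk s i σ = (univ.filter fun x => s x = -1).card := by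
    have : ∀ x ∈ univ.filter (fun x => s x = -1), σ x ∈ (univ : Finset (Fin 3)) := fun _ _ => mem_univ _
    rw [Finset.card_eq_sum_card_fiberwise this]
    refine Finset.sum_congr rfl fun i _ => ?_
    unfold yk
    rw [Finset.filter_filter]
  have h2 := Finset.sum_filter_add_sum_filter_not (univ : Finset (Fin 3)) (fun i => i = k)
    (fun i => (yk s i σ : ℝ))
  rw [Finset.filter_eq' , if_pos (mem_univ _), Finset.sum_singleton] at h2
  rw [h2, ← h1]
  push_cast; rfl

/-- Step B: all components are constant. -/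
theorem colB (hs : ∀ x, s x = 1 ∨ s x = -1) (g : Fin 3 → (C → Fin 3) → ℝ) (lam : ℝ) (hlam : 1 < lam)
    (hdep : ∀ k σ σ', σ ∈ colorings s t → σ' ∈ colorings s t → yk s k σ = yk s k σ' → g k σ = g k σ')
    (heq : ∀ k, ∀ σ ∈ colorings s t,
      ∑ j ∈ univ.filter (fun j => j ≠ k), avg (colorings s t) (kset k) (g j) σ = lam * g k σ) :
    ∀ k σ σ', σ ∈ colorings s t → σ' ∈ colorings s t → g k σ = g k σ' := by
  set Ω := colorings s t with hΩ
  rcases Ω.eq_empty_or_nonempty with hE | hNE
  · intro k σ σ' hσ; rw [hE] at hσ; exact absurd hσ (Finset.notMem_empty _)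
  -- profile functions
  have hγ : ∀ j : Fin 3, ∃ γ : ℕ → ℝ, ∀ ω ∈ Ω, g j ω = γ (yk s j ω) := by
    intro j
    classical
    refine ⟨fun a => if h : ∃ ω ∈ Ω, yk s j ω = a then g j h.choose else 0, fun ω hω => ?_⟩
    have hex : ∃ ω' ∈ Ω, yk s j ω' = yk s j ω := ⟨ω, hω, rfl⟩
    simp only [dif_pos hex]
    exact hdep j _ _ hω hex.choose_spec.1 hex.choose_spec.2.symm
  choose γ hγ using hγ
  obtain ⟨p, hp, hpmax⟩ := Finset.exists_max_image ((univ : Finset (Fin 3)) ×ˢ (Ω ×ˢ Ω))
    (fun q => |g q.1 q.2.1 - g q.1 q.2.2| / |(yk s q.1 q.2.1 : ℝ) - yk s q.1 q.2.2|)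
    ⟨(0, (hNE.choose, hNE.choose)), by simp [hNE.choose_spec]⟩
  set m := |g p.1 p.2.1 - g p.1 p.2.2| / |(yk s p.1 p.2.1 : ℝ) - yk s p.1 p.2.2| with hm
  have hm0 : 0 ≤ m := by positivity
  have hlip : ∀ k, ∀ σ ∈ Ω, ∀ σ' ∈ Ω, |g k σ - g k σ'| ≤ m * |(yk s k σ : ℝ) - yk s k σ'| := by
    intro k σ hσ σ' hσ'
    by_cases hy : yk s k σ = yk s k σ'
    · rw [hdep k σ σ' hσ hσ' hy, sub_self, abs_zero]
      positivity
    · have hpos : 0 < |(yk s k σ : ℝ) - yk s k σ'| := by
        rw [abs_pos, sub_ne_zero]; exact_mod_cast hy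
      have := hpmax (k, (σ, σ')) (by simp [hσ, hσ'])
      simp only at this
      rwa [div_le_iff₀ hpos] at this
  have hmain : ∀ k, ∀ σ ∈ Ω, ∀ σ' ∈ Ω, yk s k σ < yk s k σ' →
      lam * |g k σ - g k σ'| ≤ m * ((yk s k σ' : ℝ) - yk s k σ) := by
    intro k σ hσ σ' hσ' hlt
    have hj : ∀ j ∈ univ.filter (fun j => j ≠ k),
        |avg Ω (kset k) (g j) σ - avg Ω (kset k) (g j) σ'| ≤
          m * (avg Ω (kset k) (fun ω => (yk s j ω : ℝ)) σ - avg Ω (kset k) (fun ω => (yk s j ω : ℝ)) σ') := by
      intro j hj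
      have hjk : j ≠ k := by simpa using hj
      have e1 : ∀ ρ, avg Ω (kset k) (g j) ρ = avg Ω (kset k) (fun ω => γ j (yk s j ω)) ρ :=
        fun ρ => avg_congr_fun (fun b hb => hγ j b hb) ρ
      rw [e1, e1, hΩ, avg_fiber hs hσ k j hjk (γ j), avg_fiber hs hσ' k j hjk (γ j),
        avg_fiber hs hσ k j hjk (fun a => (a : ℝ)), avg_fiber hs hσ' k j hjk (fun a => (a : ℝ))]
      have hx1 := xk_sub_yk hs hσ k
      have hx2 := xk_sub_yk hs hσ' k
      have hn1 := card_ne_eq (s := s) (-1) k σ
      have hn2 := card_ne_eq (s := s) (-1) k σ'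
      have hp1 := card_ne_eq (s := s) 1 k σ
      have hp2 := card_ne_eq (s := s) 1 k σ'
      set n1 := (univ.filter fun x => s x = -1 ∧ σ x ≠ k).card with hn1d
      set n2 := (univ.filter fun x => s x = -1 ∧ σ' x ≠ k).card with hn2d
      set q1 := (univ.filter fun x => s x = 1 ∧ σ x ≠ k).card with hq1d
      set q2 := (univ.filter fun x => s x = 1 ∧ σ' x ≠ k).card with hq2d
      have hyσ : (univ.filter fun x => s x = -1 ∧ σ x = k).card = yk s k σ := rfl
      have hyσ' : (univ.filter fun x => s x = -1 ∧ σ' x = k).card = yk s k σ' := rfl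
      have hxσ : (univ.filter fun x => s x = 1 ∧ σ x = k).card = xk s k σ := rfl
      have hxσ' : (univ.filter fun x => s x = 1 ∧ σ' x = k).card = xk s k σ' := rfl
      rw [hyσ] at hn1
      rw [hyσ'] at hn2
      rw [hxσ] at hp1
      rw [hxσ'] at hp2
      set m0 := yk s k σ' - yk s k σ with hm0d
      have hn21 : n2 = n1 - m0 := by omega
      have hq21 : q2 = q1 - m0 := by omega
      have hmn : m0 ≤ n1 := by omega
      have hmq : m0 ≤ q1 := by omega
      have hcnt1 : ∀ a, ((cls Ω (kset k) σ).filter (fun ω => yk s j ω = a)).card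
          = n1.choose a * chz q1 ((a : ℤ) + t j) := count_cls hs hσ k j hjk
      have hcnt2 : ∀ a, ((cls Ω (kset k) σ').filter (fun ω => yk s j ω = a)).card
          = n2.choose a * chz q2 ((a : ℤ) + t j) := count_cls hs hσ' k j hjk
      have hmaps : ∀ ρ, ∀ ω ∈ cls Ω (kset k) ρ, yk s j ω ∈ range (Fintype.card C + 1) := by
        intro ρ ω _
        rw [Finset.mem_range]
        exact Nat.lt_succ_of_le (Finset.card_le_univ _)
      have htot1 : 0 < ∑ a ∈ range (Fintype.card C + 1),
          ((n1.choose a * chz q1 ((a : ℤ) + t j) : ℕ) : ℝ) := by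
        have h1 := Finset.card_eq_sum_card_fiberwise (hmaps σ)
        have h2 : 0 < (cls Ω (kset k) σ).card := Finset.card_pos.mpr ⟨σ, self_mem_cls hσ⟩
        rw [h1] at h2
        simp only [hcnt1] at h2
        exact_mod_cast h2
      have htot2 : 0 < ∑ a ∈ range (Fintype.card C + 1),
          ((n2.choose a * chz q2 ((a : ℤ) + t j) : ℕ) : ℝ) := by
        have h1 := Finset.card_eq_sum_card_fiberwise (hmaps σ')
        have h2 : 0 < (cls Ω (kset k) σ').card := Finset.card_pos.mpr ⟨σ', self_mem_cls hσ'⟩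
        rw [h1] at h2
        simp only [hcnt2] at h2
        exact_mod_cast h2
      refine kantorovich_lr _ _ _ (γ j) m htot1 htot2 ?_ ?_
      · intro a _ b _ hba
        have h1 := choose_lr n1 m0 a b hmn hba
        have h2 := chz_lr q1 m0 ((a : ℤ) + t j) ((b : ℤ) + t j) hmq (by omega)
        rw [← hn21] at h1
        rw [← hq21] at h2
        have h3 := Nat.mul_le_mul h1 h2
        have h4 : (n1.choose b * chz q1 ((b : ℤ) + t j)) * (n2.choose a * chz q2 ((a : ℤ) + t j))
            ≤ (n1.choose a * chz q1 ((a : ℤ) + t j)) * (n2.choose b * chz q2 ((b : ℤ) + t j)) := by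
          calc _ = n1.choose b * n2.choose a * (chz q1 ((b : ℤ) + t j) * chz q2 ((a : ℤ) + t j)) := by ring
            _ ≤ _ := h3
            _ = _ := by ring
        exact_mod_cast h4
      · intro a _ b _ ha hb
        have hreal : ∀ a : ℕ, (((n1.choose a * chz q1 ((a : ℤ) + t j) : ℕ) : ℝ) ≠ 0
            ∨ ((n2.choose a * chz q2 ((a : ℤ) + t j) : ℕ) : ℝ) ≠ 0) → ∃ ω ∈ Ω, yk s j ω = a := by
          intro a ha
          rcases ha with ha | ha
          · have ha' : n1.choose a * chz q1 ((a : ℤ) + t j) ≠ 0 := by exact_mod_cast ha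
            rw [← hcnt1 a] at ha'
            obtain ⟨ω, hω⟩ := Finset.card_pos.mp (Nat.pos_of_ne_zero ha')
            rw [Finset.mem_filter, mem_cls] at hω
            exact ⟨ω, hω.1.1, hω.2⟩
          · have ha' : n2.choose a * chz q2 ((a : ℤ) + t j) ≠ 0 := by exact_mod_cast ha
            rw [← hcnt2 a] at ha'
            obtain ⟨ω, hω⟩ := Finset.card_pos.mp (Nat.pos_of_ne_zero ha')
            rw [Finset.mem_filter, mem_cls] at hω
            exact ⟨ω, hω.1.1, hω.2⟩
        obtain ⟨ω, hω, hωa⟩ := hreal a ha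
        obtain ⟨ω', hω', hωb⟩ := hreal b hb
        have := hlip j ω hω ω' hω'
        rw [hγ j ω hω, hγ j ω' hω', hωa, hωb] at this
        exact this
    have hsum : ∀ ρ ∈ Ω, ∑ j ∈ univ.filter (fun j => j ≠ k), avg Ω (kset k) (fun ω => (yk s j ω : ℝ)) ρ
        = ((univ.filter fun x => s x = -1).card : ℝ) - yk s k ρ := by
      intro ρ hρ
      rw [← avg_sum]
      refine avg_eq_of_const _ hρ _ ?_
      intro ω hω
      have h1 := sum_yk (s := s) k ω
      have h2 : yk s k ω = yk s k ρ := by
        have h3 := kset_eq_iff.mp (mem_cls.mp hω).2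
        unfold yk
        congr 1
        ext x
        simp only [Finset.mem_filter, Finset.mem_univ, true_and, h3 x]
      rw [← h1, ← h2]; ring
    have e1 : lam * (g k σ - g k σ') = ∑ j ∈ univ.filter (fun j => j ≠ k),
        (avg Ω (kset k) (g j) σ - avg Ω (kset k) (g j) σ') := by
      rw [Finset.sum_sub_distrib, heq k σ hσ, heq k σ' hσ']; ring
    have e2 : lam * |g k σ - g k σ'| = |lam * (g k σ - g k σ')| := by
      rw [abs_mul, abs_of_pos (by linarith : (0:ℝ) < lam)]
    rw [e2, e1]
    refine (Finset.abs_sum_le_sum_abs _ _).trans ((Finset.sum_le_sum hj).trans ?_)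
    rw [← Finset.mul_sum, Finset.sum_sub_distrib, hsum σ hσ, hsum σ' hσ']
    apply le_of_eq; ring
  have hm1 : m = 0 := by
    rw [Finset.mem_product, Finset.mem_product] at hp
    obtain ⟨-, hp1, hp2⟩ := hp
    by_contra hne
    have hmpos : 0 < m := lt_of_le_of_ne hm0 (Ne.symm hne)
    have hyne : yk s p.1 p.2.1 ≠ yk s p.1 p.2.2 := by
      intro h
      rw [h, sub_self, abs_zero, div_zero] at hm
      exact hne hm
    rcases lt_or_gt_of_ne hyne with hlt | hlt
    · have h1 := hmain p.1 p.2.1 hp1 p.2.2 hp2 hlt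
      have h2 : (yk s p.1 p.2.1 : ℝ) < yk s p.1 p.2.2 := by exact_mod_cast hlt
      have h3 : |g p.1 p.2.1 - g p.1 p.2.2| = m * ((yk s p.1 p.2.2 : ℝ) - yk s p.1 p.2.1) := by
        rw [hm, abs_of_neg (by linarith : (yk s p.1 p.2.1 : ℝ) - yk s p.1 p.2.2 < 0), neg_sub,
          div_mul_cancel₀ _ (by linarith)]
      rw [h3] at h1
      have h4 : 0 < m * ((yk s p.1 p.2.2 : ℝ) - yk s p.1 p.2.1) := mul_pos hmpos (by linarith)
      nlinarith
    · have h1 := hmain p.1 p.2.2 hp2 p.2.1 hp1 hlt
      have h2 : (yk s p.1 p.2.2 : ℝ) < yk s p.1 p.2.1 := by exact_mod_cast hlt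
      have h3 : |g p.1 p.2.2 - g p.1 p.2.1| = m * ((yk s p.1 p.2.1 : ℝ) - yk s p.1 p.2.2) := by
        rw [hm, abs_of_pos (by linarith : 0 < (yk s p.1 p.2.1 : ℝ) - yk s p.1 p.2.2), abs_sub_comm,
          div_mul_cancel₀ _ (by linarith)]
      rw [h3] at h1
      have h4 : 0 < m * ((yk s p.1 p.2.1 : ℝ) - yk s p.1 p.2.2) := mul_pos hmpos (by linarith)
      nlinarith
  intro k σ σ' hσ hσ'
  have h1 := hlip k σ hσ σ' hσ'
  rw [hm1, zero_mul] at h1
  have h2 := abs_eq_zero.mp (le_antisymm h1 (abs_nonneg _))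
  linarith

/-- The operator used for the three colour system. -/
noncomputable def TC (s : C → ℤ) (t : Fin 3 → ℤ) : ((C → Fin 3) → ℝ) →ₗ[ℝ] ((C → Fin 3) → ℝ) where
  toFun f σ := if σ ∈ colorings s t then
    ∑ k, avg (colorings s t) (kset k) f σ - 3 * ∑ ω ∈ colorings s t, f ω else 0
  map_add' f g := by
    funext σ
    by_cases h : σ ∈ colorings s t
    · have e1 : ∀ k : Fin 3, avg (colorings s t) (kset k) (f + g) σ
          = avg (colorings s t) (kset k) f σ + avg (colorings s t) (kset k) g σ := fun k => avg_add f g σ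
      have e2 : ∑ ω ∈ colorings s t, (f + g) ω
          = ∑ ω ∈ colorings s t, f ω + ∑ ω ∈ colorings s t, g ω := Finset.sum_add_distrib
      simp only [Pi.add_apply, if_pos h]
      simp only [Pi.add_apply] at e2
      rw [Finset.sum_congr rfl fun k _ => e1 k, e2, Finset.sum_add_distrib]; ring
    · simp only [Pi.add_apply, if_neg h, add_zero]
  map_smul' c f := by
    funext σ
    by_cases h : σ ∈ colorings s t
    · have e1 : ∀ k : Fin 3, avg (colorings s t) (kset k) (c • f) σ
          = c * avg (colorings s t) (kset k) f σ := fun k => avg_smul c f σ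
      have e2 : ∑ ω ∈ colorings s t, (c • f) ω = c * ∑ ω ∈ colorings s t, f ω := by
        rw [Finset.mul_sum]; rfl
      simp only [Pi.smul_apply, if_pos h, smul_eq_mul, RingHom.id_apply]
      simp only [Pi.smul_apply, smul_eq_mul] at e2
      rw [Finset.sum_congr rfl fun k _ => e1 k, e2, ← Finset.mul_sum]; ring
    · simp only [Pi.smul_apply, if_neg h, smul_zero]

theorem TC_apply (f : (C → Fin 3) → ℝ) {σ : C → Fin 3} (h : σ ∈ colorings s t) :
    TC s t f σ = ∑ k, avg (colorings s t) (kset k) f σ - 3 * ∑ ω ∈ colorings s t, f ω := if_pos h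

theorem TC_apply_not (f : (C → Fin 3) → ℝ) {σ : C → Fin 3} (h : σ ∉ colorings s t) :
    TC s t f σ = 0 := if_neg h

theorem sum_mul_TC (f g : (C → Fin 3) → ℝ) :
    ∑ σ, f σ * TC s t g σ = ∑ k, ∑ σ ∈ colorings s t, f σ * avg (colorings s t) (kset k) g σ
      - 3 * (∑ σ ∈ colorings s t, f σ) * ∑ σ ∈ colorings s t, g σ := by
  have h1 : ∑ σ, f σ * TC s t g σ = ∑ σ ∈ colorings s t, f σ * TC s t g σ := by
    symm
    apply Finset.sum_subset (Finset.subset_univ _)
    intro σ _ hσ
    rw [TC_apply_not g hσ, mul_zero]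
  rw [h1, Finset.sum_comm, mul_assoc, Finset.sum_mul, Finset.mul_sum, ← Finset.sum_sub_distrib]
  refine Finset.sum_congr rfl fun σ hσ => ?_
  rw [TC_apply g hσ, ← Finset.mul_sum]; ring

theorem TC_symm (f g : (C → Fin 3) → ℝ) : ∑ σ, f σ * TC s t g σ = ∑ σ, TC s t f σ * g σ := by
  have h2 : ∑ σ, TC s t f σ * g σ = ∑ σ, g σ * TC s t f σ :=
    Finset.sum_congr rfl fun _ _ => mul_comm _ _
  rw [h2, sum_mul_TC, sum_mul_TC]
  have h3 : ∀ k : Fin 3, ∑ σ ∈ colorings s t, f σ * avg (colorings s t) (kset k) g σ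
      = ∑ σ ∈ colorings s t, g σ * avg (colorings s t) (kset k) f σ := by
    intro k
    rw [sum_mul_avg_comm]
    exact Finset.sum_congr rfl fun _ _ => mul_comm _ _
  rw [Finset.sum_congr rfl fun k _ => h3 k]; ring

theorem TC_eig (hs : ∀ x, s x = 1 ∨ s x = -1) (ν : ℝ) (u : (C → Fin 3) → ℝ) (hν : 2 < ν)
    (hu : TC s t u = ν • u) : u = 0 := by
  have hout : ∀ σ, σ ∉ colorings s t → u σ = 0 := by
    intro σ hσ
    have := congrFun hu σ
    rw [TC_apply_not u hσ, Pi.smul_apply, smul_eq_mul] at this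
    rcases mul_eq_zero.mp this.symm with h | h
    · linarith
    · exact h
  rcases (colorings s t).eq_empty_or_nonempty with hE | hNE
  · funext σ
    exact hout σ (by rw [hE]; exact Finset.notMem_empty _)
  have hin : ∀ σ ∈ colorings s t,
      ∑ k, avg (colorings s t) (kset k) u σ - 3 * ∑ ω ∈ colorings s t, u ω = ν * u σ := by
    intro σ hσ
    have := congrFun hu σ
    rwa [TC_apply u hσ, Pi.smul_apply, smul_eq_mul] at this
  have hcard : 1 ≤ ((colorings s t).card : ℝ) := by
    have : 1 ≤ (colorings s t).card := Finset.card_pos.mpr hNE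
    exact_mod_cast this
  have hmean : ∑ ω ∈ colorings s t, u ω = 0 := by
    have h1 : ∑ σ ∈ colorings s t, (∑ k, avg (colorings s t) (kset k) u σ
        - 3 * ∑ ω ∈ colorings s t, u ω) = ∑ σ ∈ colorings s t, ν * u σ :=
      Finset.sum_congr rfl hin
    rw [Finset.sum_sub_distrib, Finset.sum_comm, Finset.sum_const, ← Finset.mul_sum, nsmul_eq_mul] at h1
    have h2 : ∑ k : Fin 3, ∑ σ ∈ colorings s t, avg (colorings s t) (kset k) u σ
        = 3 * ∑ ω ∈ colorings s t, u ω := by
      rw [Finset.sum_congr rfl fun k _ => sum_avg u]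
      simp
    rw [h2] at h1
    have h3 : (3 - 3 * ((colorings s t).card : ℝ) - ν) * ∑ ω ∈ colorings s t, u ω = 0 := by
      linarith
    rcases mul_eq_zero.mp h3 with h | h
    · linarith
    · exact h
  rw [hmean] at hin
  simp only [mul_zero, sub_zero] at hin
  set g : Fin 3 → (C → Fin 3) → ℝ := fun k => avg (colorings s t) (kset k) u with hg
  have hmeas : ∀ k σ σ', σ ∈ colorings s t → σ' ∈ colorings s t → kset k σ = kset k σ' →
      g k σ = g k σ' := fun k σ σ' _ _ h => avg_congr u h
  have heq : ∀ k, ∀ σ ∈ colorings s t,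
      ∑ j ∈ univ.filter (fun j => j ≠ k), avg (colorings s t) (kset k) (g j) σ = (ν - 1) * g k σ := by
    intro k σ hσ
    have h1 : avg (colorings s t) (kset k) (fun ω => ∑ j, g j ω) σ
        = avg (colorings s t) (kset k) (fun ω => ν * u ω) σ :=
      avg_congr_fun (fun b hb => hin b hb) σ
    rw [avg_sum, avg_smul] at h1
    have h2 := Finset.sum_filter_add_sum_filter_not (univ : Finset (Fin 3)) (fun i => i = k)
      (fun i => avg (colorings s t) (kset k) (g i) σ)
    rw [Finset.filter_eq' , if_pos (mem_univ _), Finset.sum_singleton, h1] at h2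
    have h3 : avg (colorings s t) (kset k) (g k) σ = g k σ := avg_avg u hσ
    rw [h3] at h2
    have h4 : ∑ j ∈ univ.filter (fun j => j ≠ k), avg (colorings s t) (kset k) (g j) σ
        = ν * avg (colorings s t) (kset k) u σ - g k σ := by
      rw [← h2]; ring
    rw [h4]; simp only [hg]; ring
  have hlam : 1 < ν - 1 := by linarith
  have hA := fun x y hxy => colA g (ν - 1) hlam hmeas heq x y hxy
  have hB1 := colB1 hs g hmeas hA
  have hB := colB hs g (ν - 1) hlam hB1 heq
  have hg0 : ∀ k, ∀ σ ∈ colorings s t, g k σ = 0 := by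
    intro k σ hσ
    have h1 : ∑ ω ∈ colorings s t, g k ω = 0 := by
      simp only [hg]; rw [sum_avg, hmean]
    rw [Finset.sum_congr rfl fun ω hω => hB k ω σ hω hσ, Finset.sum_const, nsmul_eq_mul] at h1
    rcases mul_eq_zero.mp h1 with h | h
    · linarith
    · exact h
  funext σ
  by_cases hσ : σ ∈ colorings s t
  · have h1 := hin σ hσ
    have h2 : ∑ k, avg (colorings s t) (kset k) u σ = 0 :=
      Finset.sum_eq_zero fun k _ => hg0 k σ hσ
    rw [h2] at h1
    rcases mul_eq_zero.mp h1.symm with h | h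
    · linarith
    · exact h
  · exact hout σ hσ

/-- Three colour Poincare inequality, mean zero form. -/
theorem color_quad (hs : ∀ x, s x = 1 ∨ s x = -1) (f : (C → Fin 3) → ℝ)
    (hf : ∑ σ ∈ colorings s t, f σ = 0) :
    ∑ k, ∑ σ ∈ colorings s t, f σ * avg (colorings s t) (kset k) f σ
      ≤ 2 * ∑ σ ∈ colorings s t, f σ ^ 2 := by
  set f' : (C → Fin 3) → ℝ := fun σ => if σ ∈ colorings s t then f σ else 0 with hf'
  have h1 := quad_le_of_eig (TC s t) TC_symm 2 (fun ν u hν hu => TC_eig hs ν u hν hu) f'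
  rw [sum_mul_TC] at h1
  have e1 : ∀ σ ∈ colorings s t, f' σ = f σ := fun σ hσ => if_pos hσ
  have e2 : ∑ σ ∈ colorings s t, f' σ = 0 := by rw [Finset.sum_congr rfl e1, hf]
  have e3 : ∑ σ, f' σ ^ 2 = ∑ σ ∈ colorings s t, f σ ^ 2 := by
    rw [← Finset.sum_subset (Finset.subset_univ (colorings s t))
      (fun σ _ hσ => by simp only [hf', if_neg hσ]; ring)]
    exact Finset.sum_congr rfl fun σ hσ => by rw [e1 σ hσ]
  rw [e2, e3, mul_zero, sub_zero] at h1
  refine le_trans (le_of_eq ?_) h1
  refine Finset.sum_congr rfl fun k _ => Finset.sum_congr rfl fun σ hσ => ?_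
  rw [e1 σ hσ, avg_congr_fun e1 σ]

/-- Three colour Poincare inequality. -/
theorem color_poincare (hs : ∀ x, s x = 1 ∨ s x = -1) (F : (C → Fin 3) → ℝ) :
    ∑ σ ∈ colorings s t, (F σ - (∑ ω ∈ colorings s t, F ω) / ((colorings s t).card : ℝ)) ^ 2
      ≤ ∑ k : Fin 3, ∑ σ ∈ colorings s t, (F σ - avg (colorings s t) (kset k) F σ) ^ 2 := by
  rcases (colorings s t).eq_empty_or_nonempty with hE | hNE
  · rw [hE]; simp
  have hcard : ((colorings s t).card : ℝ) ≠ 0 := by
    have : 0 < (colorings s t).card := Finset.card_pos.mpr hNE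
    exact_mod_cast this.ne'
  set μ := (∑ ω ∈ colorings s t, F ω) / ((colorings s t).card : ℝ) with hμ
  set f : (C → Fin 3) → ℝ := fun σ => F σ - μ with hf
  have hf0 : ∑ σ ∈ colorings s t, f σ = 0 := by
    simp only [hf]
    rw [Finset.sum_sub_distrib, Finset.sum_const, nsmul_eq_mul, hμ]
    field_simp
    ring
  have h1 := color_quad hs f hf0
  have h2 : ∀ k : Fin 3, ∑ σ ∈ colorings s t, (F σ - avg (colorings s t) (kset k) F σ) ^ 2
      = ∑ σ ∈ colorings s t, f σ ^ 2 - ∑ σ ∈ colorings s t, f σ * avg (colorings s t) (kset k) f σ := by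
    intro k
    have e1 : ∀ σ ∈ colorings s t, F σ - avg (colorings s t) (kset k) F σ
        = res (colorings s t) (kset k) f σ := by
      intro σ hσ
      unfold res
      have : avg (colorings s t) (kset k) f σ = avg (colorings s t) (kset k) F σ - μ := by
        simp only [hf]
        rw [avg_sub, avg_eq_of_const (fun _ => μ) hσ μ fun _ _ => rfl]
      rw [this]; simp only [hf]; ring
    rw [Finset.sum_congr rfl fun σ hσ => by rw [e1 σ hσ], sum_res_sq, ← Finset.sum_sub_distrib]
    refine Finset.sum_congr rfl fun σ _ => ?_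
    unfold res; ring
  rw [Finset.sum_congr rfl fun k _ => h2 k, Finset.sum_sub_distrib, Finset.sum_const, Finset.card_univ,
    Fintype.card_fin, nsmul_eq_mul]
  have h3 : ∑ σ ∈ colorings s t, (F σ - μ) ^ 2 = ∑ σ ∈ colorings s t, f σ ^ 2 := rfl
  rw [h3]
  push_cast
  linarith

end color

end Crest.Agent.SwitchChain
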