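import Mathlib

set_option autoImplicit false

namespace Crest.Agent.SwitchChain

open Finset Matrix

/-- A symmetric operator all of whose eigenvectors with eigenvalue `< c` vanish satisfies
`c ‖f‖² ≤ ⟨f, T f⟩`. -/
theorem le_quad_of_eig {ι : Type*} [Fintype ι] [DecidableEq ι]
    (T : (ι → ℝ) →ₗ[ℝ] (ι → ℝ))
    (hT : ∀ f g : ι → ℝ, ∑ i, f i * T g i = ∑ i, T f i * g i) (c : ℝ)
    (h : ∀ (μ : ℝ) (f : ι → ℝ), μ < c → T f = μ • f → f = 0) (f : ι → ℝ) :
    c * ∑ i, f i ^ 2 ≤ ∑ i, f i * T f i := by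
  classical
  set A : Matrix ι ι ℝ := LinearMap.toMatrix' T - c • (1 : Matrix ι ι ℝ) with hA
  have hmul : ∀ v : ι → ℝ, A *ᵥ v = T v - c • v := by
    intro v
    rw [hA, Matrix.sub_mulVec, LinearMap.toMatrix'_mulVec, Matrix.smul_mulVec, Matrix.one_mulVec]
  have hherm : A.IsHermitian := by
    ext i j
    have h1 : ∀ i j : ι, LinearMap.toMatrix' T i j = T (Pi.single j 1) i := by
      intro i j
      simp [LinearMap.toMatrix'_apply]
    have h2 : T (Pi.single j 1) i = T (Pi.single i 1) j := by
      have := hT (Pi.single i 1) (Pi.single j 1)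
      simpa [Pi.single_apply] using this
    simp only [Matrix.conjTranspose_apply, hA, Matrix.sub_apply, Matrix.smul_apply, star_trivial]
    rw [h1, h1, h2]
    by_cases hij : i = j
    · subst hij; rfl
    · rw [Matrix.one_apply_ne hij, Matrix.one_apply_ne (Ne.symm hij)]
  have hpos : A.PosSemidef := by
    rw [hherm.posSemidef_iff_eigenvalues_nonneg]
    intro j
    by_contra hneg
    have hneg' : hherm.eigenvalues j < 0 := by simpa using hneg
    have hev := hherm.mulVec_eigenvectorBasis j
    rw [hmul] at hev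
    have : T (hherm.eigenvectorBasis j) = (hherm.eigenvalues j + c) • ((hherm.eigenvectorBasis j : EuclideanSpace ℝ ι) : ι → ℝ) := by
      rw [add_smul, ← sub_eq_iff_eq_add]
      exact hev
    have hz := h _ _ (by linarith) this
    have hn := hherm.eigenvectorBasis.orthonormal.ne_zero j
    apply hn
    ext k
    exact congrFun hz k
  have h3 := hpos.dotProduct_mulVec_nonneg f
  rw [hmul] at h3
  simp only [star_trivial, dotProduct, Pi.sub_apply, Pi.smul_apply, smul_eq_mul] at h3
  have h4 : ∑ i, f i * (T f i - c * f i) = ∑ i, f i * T f i - c * ∑ i, f i ^ 2 := by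
    rw [Finset.mul_sum, ← Finset.sum_sub_distrib]
    refine Finset.sum_congr rfl fun i _ => ?_
    ring
  rw [h4] at h3
  linarith

/-- Upper version. -/
theorem quad_le_of_eig {ι : Type*} [Fintype ι] [DecidableEq ι]
    (T : (ι → ℝ) →ₗ[ℝ] (ι → ℝ))
    (hT : ∀ f g : ι → ℝ, ∑ i, f i * T g i = ∑ i, T f i * g i) (c : ℝ)
    (h : ∀ (μ : ℝ) (f : ι → ℝ), c < μ → T f = μ • f → f = 0) (f : ι → ℝ) :
    ∑ i, f i * T f i ≤ c * ∑ i, f i ^ 2 := by
  have := le_quad_of_eig (-T) (by
    intro f g
    simp only [LinearMap.neg_apply, Pi.neg_apply, mul_neg, neg_mul, Finset.sum_neg_distrib, hT f g])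
    (-c) (by
      intro μ f hμ hf
      refine h (-μ) f (by linarith) ?_
      have := congrArg (fun z => -z) hf
      simpa using this) f
  simp only [LinearMap.neg_apply, Pi.neg_apply, mul_neg, Finset.sum_neg_distrib] at this
  linarith

end Crest.Agent.SwitchChain
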