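import Crest.Agent.SwitchChain.Spec

set_option autoImplicit false

namespace Crest.Agent.SwitchChain

open Finset

section Avg

variable {α L : Type*} [DecidableEq L]

/-- the class of `a` for the key `lam` in `Ω`. -/
def cls (Ω : Finset α) (lam : α → L) (a : α) : Finset α := Ω.filter fun b => lam b = lam a

/-- average of `f` over the class of `a`. -/
noncomputable def avg (Ω : Finset α) (lam : α → L) (f : α → ℝ) (a : α) : ℝ :=
  (∑ b ∈ cls Ω lam a, f b) / ((cls Ω lam a).card : ℝ)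

variable {Ω : Finset α} {lam : α → L}

theorem mem_cls {a b : α} : b ∈ cls Ω lam a ↔ b ∈ Ω ∧ lam b = lam a := by
  unfold cls; rw [Finset.mem_filter]

theorem cls_congr {a b : α} (h : lam a = lam b) : cls Ω lam a = cls Ω lam b := by
  unfold cls; rw [h]

theorem avg_congr (f : α → ℝ) {a b : α} (h : lam a = lam b) : avg Ω lam f a = avg Ω lam f b := by
  unfold avg; rw [cls_congr h]

theorem self_mem_cls {a : α} (ha : a ∈ Ω) : a ∈ cls Ω lam a := mem_cls.mpr ⟨ha, rfl⟩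

theorem card_cls_pos {a : α} (ha : a ∈ Ω) : 0 < ((cls Ω lam a).card : ℝ) := by
  have : 0 < (cls Ω lam a).card := Finset.card_pos.mpr ⟨a, self_mem_cls ha⟩
  exact_mod_cast this

theorem avg_mul_card (f : α → ℝ) {a : α} (ha : a ∈ Ω) :
    avg Ω lam f a * ((cls Ω lam a).card : ℝ) = ∑ b ∈ cls Ω lam a, f b := by
  unfold avg; rw [div_mul_cancel₀]; exact (card_cls_pos ha).ne'

/-- basic double counting: -/
theorem sum_mul_avg (f g : α → ℝ) :
    ∑ a ∈ Ω, f a * avg Ω lam g a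
      = ∑ a ∈ Ω, ∑ b ∈ cls Ω lam a, f a * g b / ((cls Ω lam a).card : ℝ) := by
  refine Finset.sum_congr rfl fun a _ => ?_
  unfold avg
  rw [← Finset.sum_div, ← Finset.mul_sum, mul_div_assoc]

theorem sum_cls_comm (F : α → α → ℝ) :
    ∑ a ∈ Ω, ∑ b ∈ cls Ω lam a, F a b = ∑ b ∈ Ω, ∑ a ∈ cls Ω lam b, F a b := by
  refine Finset.sum_comm' ?_
  intro a b
  simp only [mem_cls]
  constructor
  · rintro ⟨h1, h2, h3⟩; exact ⟨⟨h1, h3.symm⟩, h2⟩
  · rintro ⟨⟨h1, h3⟩, h2⟩; exact ⟨h1, h2, h3.symm⟩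

theorem sum_mul_avg_comm (f g : α → ℝ) :
    ∑ a ∈ Ω, f a * avg Ω lam g a = ∑ a ∈ Ω, avg Ω lam f a * g a := by
  rw [sum_mul_avg, sum_cls_comm]
  refine Finset.sum_congr rfl fun b _ => ?_
  have : ∀ a ∈ cls Ω lam b, f a * g b / ((cls Ω lam a).card : ℝ)
      = f a * (g b / ((cls Ω lam b).card : ℝ)) := by
    intro a ha
    rw [cls_congr (mem_cls.mp ha).2, mul_div_assoc]
  rw [Finset.sum_congr rfl this, ← Finset.sum_mul]
  unfold avg
  ring

theorem avg_eq_of_const (f : α → ℝ) {a : α} (ha : a ∈ Ω) (c : ℝ)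
    (h : ∀ b ∈ cls Ω lam a, f b = c) : avg Ω lam f a = c := by
  unfold avg
  rw [Finset.sum_congr rfl h, Finset.sum_const, nsmul_eq_mul]
  have := (card_cls_pos (lam := lam) ha).ne'
  field_simp

theorem avg_avg (f : α → ℝ) {a : α} (ha : a ∈ Ω) :
    avg Ω lam (avg Ω lam f) a = avg Ω lam f a :=
  avg_eq_of_const _ ha _ fun _ hb => avg_congr f (mem_cls.mp hb).2

theorem avg_add (f g : α → ℝ) (a : α) :
    avg Ω lam (fun b => f b + g b) a = avg Ω lam f a + avg Ω lam g a := by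
  unfold avg; rw [Finset.sum_add_distrib, add_div]

theorem avg_sub (f g : α → ℝ) (a : α) :
    avg Ω lam (fun b => f b - g b) a = avg Ω lam f a - avg Ω lam g a := by
  unfold avg; rw [Finset.sum_sub_distrib, sub_div]

theorem avg_smul (c : ℝ) (f : α → ℝ) (a : α) :
    avg Ω lam (fun b => c * f b) a = c * avg Ω lam f a := by
  unfold avg; rw [← Finset.mul_sum, mul_div_assoc]

theorem avg_sum {ι : Type*} (s : Finset ι) (f : ι → α → ℝ) (a : α) :
    avg Ω lam (fun b => ∑ i ∈ s, f i b) a = ∑ i ∈ s, avg Ω lam (f i) a := by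
  unfold avg; rw [Finset.sum_comm, Finset.sum_div]

theorem avg_congr_fun {f g : α → ℝ} (h : ∀ b ∈ Ω, f b = g b) (a : α) :
    avg Ω lam f a = avg Ω lam g a := by
  unfold avg
  rw [Finset.sum_congr rfl fun b hb => h b (mem_cls.mp hb).1]

theorem avg_mono {f g : α → ℝ} {a : α} (ha : a ∈ Ω) (h : ∀ b ∈ cls Ω lam a, f b ≤ g b) :
    avg Ω lam f a ≤ avg Ω lam g a := by
  unfold avg
  exact div_le_div_of_nonneg_right (Finset.sum_le_sum h) (card_cls_pos ha).le

theorem abs_avg_le (f : α → ℝ) (a : α) : |avg Ω lam f a| ≤ avg Ω lam (fun b => |f b|) a := by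
  unfold avg
  rw [abs_div, Nat.abs_cast]
  exact div_le_div_of_nonneg_right (Finset.abs_sum_le_sum_abs _ _) (Nat.cast_nonneg _)

theorem avg_le_of_le {f : α → ℝ} {a : α} (ha : a ∈ Ω) {c : ℝ} (h : ∀ b ∈ cls Ω lam a, f b ≤ c) :
    avg Ω lam f a ≤ c := by
  have h1 := avg_mono (g := fun _ => c) ha h
  rwa [avg_eq_of_const (fun _ => c) ha c fun _ _ => rfl] at h1

theorem sum_avg (f : α → ℝ) : ∑ a ∈ Ω, avg Ω lam f a = ∑ a ∈ Ω, f a := by
  have h := sum_mul_avg_comm (Ω := Ω) (lam := lam) f (fun _ => 1)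
  have h1 : ∀ a ∈ Ω, avg Ω lam (fun _ => (1 : ℝ)) a = 1 := fun a ha =>
    avg_eq_of_const _ ha 1 fun _ _ => rfl
  simp only [mul_one] at h
  rw [← h]
  exact Finset.sum_congr rfl fun a ha => by rw [h1 a ha, mul_one]

/-- measurable functions factor out -/
theorem avg_mul_of_meas (h f : α → ℝ) (hh : ∀ a b, a ∈ Ω → b ∈ Ω → lam a = lam b → h a = h b) {a : α} (ha : a ∈ Ω) :
    avg Ω lam (fun b => h b * f b) a = h a * avg Ω lam f a := by
  unfold avg
  rw [← mul_div_assoc, Finset.mul_sum]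
  congr 1
  refine Finset.sum_congr rfl fun b hb => ?_
  show h b * f b = h a * f b
  rw [hh b a (mem_cls.mp hb).1 ha (mem_cls.mp hb).2]

/-- the residual `f - avg f` -/
noncomputable def res (Ω : Finset α) (lam : α → L) (f : α → ℝ) (a : α) : ℝ := f a - avg Ω lam f a

theorem avg_res (f : α → ℝ) {a : α} (ha : a ∈ Ω) : avg Ω lam (res Ω lam f) a = 0 := by
  unfold res
  rw [avg_sub, avg_avg f ha, sub_self]

theorem sum_mul_res_comm (f g : α → ℝ) :
    ∑ a ∈ Ω, f a * res Ω lam g a = ∑ a ∈ Ω, res Ω lam f a * g a := by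
  unfold res
  simp only [mul_sub, sub_mul, Finset.sum_sub_distrib, sum_mul_avg_comm]

/-- `⟨f, res g⟩ = ⟨res f, res g⟩` -/
theorem sum_mul_res (f g : α → ℝ) :
    ∑ a ∈ Ω, f a * res Ω lam g a = ∑ a ∈ Ω, res Ω lam f a * res Ω lam g a := by
  have h1 : ∑ a ∈ Ω, avg Ω lam f a * res Ω lam g a = 0 := by
    rw [← sum_mul_avg_comm]
    exact Finset.sum_eq_zero fun a ha => by rw [avg_res g ha, mul_zero]
  have h2 : ∑ a ∈ Ω, res Ω lam f a * res Ω lam g a
      = ∑ a ∈ Ω, f a * res Ω lam g a - ∑ a ∈ Ω, avg Ω lam f a * res Ω lam g a := by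
    rw [← Finset.sum_sub_distrib]
    refine Finset.sum_congr rfl fun a _ => ?_
    unfold res; ring
  rw [h2, h1, sub_zero]

theorem sum_res_sq (f : α → ℝ) :
    ∑ a ∈ Ω, res Ω lam f a ^ 2 = ∑ a ∈ Ω, f a * res Ω lam f a := by
  rw [sum_mul_res]
  exact Finset.sum_congr rfl fun a _ => sq _

/-- sums over `Ω` decompose over classes: if `F` is a function of the class, -/
theorem sum_eq_sum_avg_cls (F : α → ℝ) :
    ∑ a ∈ Ω, F a = ∑ a ∈ Ω, (∑ b ∈ cls Ω lam a, F b) / ((cls Ω lam a).card : ℝ) :=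
  (sum_avg (lam := lam) F).symm

end Avg

end Crest.Agent.SwitchChain
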